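import Vale.Agent.P170.Hall

open Finset Filter Topology
open scoped BigOperators

namespace Vale.Agent.P170

/-- sixth root -/
noncomputable def s6 (n : ℕ) : ℝ := (n : ℝ) ^ ((6:ℕ)⁻¹ : ℝ)

lemma s6_pow (n : ℕ) : s6 n ^ 6 = n := Real.rpow_inv_natCast_pow (Nat.cast_nonneg n) (by norm_num)

lemma s6_nonneg (n : ℕ) : 0 ≤ s6 n := Real.rpow_nonneg (Nat.cast_nonneg n) _

lemma one_le_s6 {n : ℕ} (hn : 0 < n) : 1 ≤ s6 n :=
  Real.one_le_rpow (by exact_mod_cast hn) (by positivity)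

lemma s6_le {n N : ℕ} {ρ : ℝ} (hρ : 0 ≤ ρ) (h : n ≤ ρ ^ 6 * N) : s6 n ≤ ρ * s6 N := by
  refine le_of_pow_le_pow_left₀ (n := 6) (by norm_num) (mul_nonneg hρ (s6_nonneg N)) ?_
  rw [mul_pow, s6_pow, s6_pow]; exact h

lemma s6_tendsto : Tendsto s6 atTop atTop :=
  (tendsto_rpow_atTop (by positivity)).comp tendsto_natCast_atTop_atTop

lemma exp_le_one_sub {x : ℝ} (h0 : 0 ≤ x) (h : x ≤ 1 / 2) : Real.exp (-(2 * x)) ≤ 1 - x := by
  have h1 := Real.add_one_le_exp (2 * x)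
  rw [Real.exp_neg, inv_le_comm₀ (Real.exp_pos _) (by linarith), inv_eq_one_div,
    div_le_iff₀ (by linarith)]
  nlinarith

/-- the finite-size facts used in the limit argument -/
structure Data (P : ℕ → ℕ → ℝ) (μ : ℕ → ℝ) (A σ : ℝ) : Prop where
  hA : 1 ≤ A
  hσ : 1 ≤ σ
  P0 : ∀ n m, 0 ≤ P n m
  P1 : ∀ n m, P n m ≤ 1
  μ0 : ∀ n, 0 ≤ μ n
  μA : ∀ n, μ n ≤ A * n
  lower : ∀ n, 0 < n → ∀ (m : ℕ) (y : ℝ), 0 < y → m + y ≤ μ n →
    1 - P n m ≤ (σ * s6 n ^ 5) ^ 2 / y ^ 2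
  upper : ∀ n, 0 < n → ∀ (m : ℕ) (y : ℝ), 0 < y → μ n + y ≤ m + 1 →
    P n m ≤ (σ * s6 n ^ 5) ^ 2 / y ^ 2 + (1 / 2) ^ n
  split : ∀ N₁ N₂ : ℕ, 0 < N₁ → 0 < N₂ → ∀ (m a b : ℕ) (y : ℝ), 0 < y →
    y ≤ a + 1 - m * (N₁ / (N₁ + N₂) : ℝ) → y ≤ m * (N₁ / (N₁ + N₂) : ℝ) - m + b + 1 →
    1 - P (N₁ + N₂) m ≤ (1 - P N₁ a) + (1 - P N₂ b) + m / y ^ 2
  succ : ∀ n : ℕ, 0 < n → ∀ m : ℕ, (n / (n + 1) : ℝ) ^ m * P n m ≤ P (n + 1) m
  pos : ∀ n, 0 < n → ∀ m : ℕ, 27 * m ≤ n → 1 / 2 ≤ P n m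

namespace Data
variable {P : ℕ → ℕ → ℝ} {μ : ℕ → ℝ} {A σ : ℝ} (h : Data P μ A σ)
include h

lemma mu_split (N₁ N₂ : ℕ) (h₁ : 0 < N₁) (h₂ : 0 < N₂) (h₃ : N₁ ≤ 3 * N₂) (h₄ : N₂ ≤ 3 * N₁)
    (r : ℝ) (hr₁ : r * N₁ ≤ μ N₁) (hr₂ : r * N₂ ≤ μ N₂) :
    r * (N₁ + N₂) - 13 * (4 * σ * A * s6 (N₁ + N₂) ^ 5) ≤ μ (N₁ + N₂) := by
  have hA := h.hA
  have hσ := h.hσ
  have hN₁ : (0:ℝ) < N₁ := by exact_mod_cast h₁
  have hN₂ : (0:ℝ) < N₂ := by exact_mod_cast h₂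
  have h₃' : (N₁:ℝ) ≤ 3 * N₂ := by exact_mod_cast h₃
  have h₄' : (N₂:ℝ) ≤ 3 * N₁ := by exact_mod_cast h₄
  have hs := one_le_s6 (n := N₁ + N₂) (by omega)
  have hs6 := s6_pow (N₁ + N₂)
  push_cast at hs6
  set s := s6 (N₁ + N₂) with hsdef
  set Y := 4 * σ * A * s ^ 5 with hY
  have hY0 : 0 < Y := by positivity
  have hV : ∀ n : ℕ, n ≤ N₁ + N₂ → (σ * s6 n ^ 5) ^ 2 / Y ^ 2 ≤ 1 / 16 := by
    intro n hn
    have h1 : s6 n ≤ 1 * s := s6_le zero_le_one (by rw [one_pow, one_mul]; exact_mod_cast hn)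
    rw [one_mul] at h1
    have h0 := s6_nonneg n
    have h2 : σ * s6 n ^ 5 ≤ Y / 4 := by
      calc σ * s6 n ^ 5 ≤ σ * s ^ 5 := by gcongr
        _ = σ * 1 * s ^ 5 := by ring
        _ ≤ σ * A * s ^ 5 := by gcongr
        _ = Y / 4 := by rw [hY]; ring
    rw [div_le_iff₀ (by positivity)]
    calc (σ * s6 n ^ 5) ^ 2 ≤ (Y / 4) ^ 2 := by gcongr
      _ = _ := by ring
  by_cases hneg : r * (N₁ + N₂) - 12 * Y < 0
  · linarith [h.μ0 (N₁ + N₂)]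
  push Not at hneg
  set m := ⌊r * (N₁ + N₂) - 12 * Y⌋₊ with hm
  have hm1 : (m:ℝ) ≤ r * (N₁ + N₂) - 12 * Y := Nat.floor_le hneg
  have hm2 : r * (N₁ + N₂) - 12 * Y < m + 1 := Nat.lt_floor_add_one _
  have hm0 : (0:ℝ) ≤ m := Nat.cast_nonneg m
  set p : ℝ := N₁ / (N₁ + N₂) with hp
  have hp1 : p * (N₁ + N₂) = N₁ := by rw [hp]; field_simp
  have hp2 : (1 - p) * (N₁ + N₂) = N₂ := by linarith
  have hp3 : 1 / 4 ≤ p := by rw [hp, le_div_iff₀ (by positivity)]; linarith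
  have hp4 : 1 / 4 ≤ 1 - p := by
    have : p ≤ 3 / 4 := by rw [hp, div_le_iff₀ (by positivity)]; linarith
    linarith
  set a := ⌊m * p + Y⌋₊ with ha
  set b := ⌊m * (1 - p) + Y⌋₊ with hb
  have ha1 : (a:ℝ) ≤ m * p + Y := Nat.floor_le (by positivity)
  have ha2 : m * p + Y < a + 1 := Nat.lt_floor_add_one _
  have hb1 : (b:ℝ) ≤ m * (1 - p) + Y := Nat.floor_le (by positivity)
  have hb2 : m * (1 - p) + Y < b + 1 := Nat.lt_floor_add_one _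
  have e1 : m * p ≤ r * N₁ - 3 * Y := by
    calc m * p ≤ (r * (N₁ + N₂) - 12 * Y) * p := by gcongr
      _ = r * (p * (N₁ + N₂)) - 12 * Y * p := by ring
      _ ≤ _ := by rw [hp1]; nlinarith
  have e2 : m * (1 - p) ≤ r * N₂ - 3 * Y := by
    calc m * (1 - p) ≤ (r * (N₁ + N₂) - 12 * Y) * (1 - p) := by gcongr
      _ = r * ((1 - p) * (N₁ + N₂)) - 12 * Y * (1 - p) := by ring
      _ ≤ _ := by rw [hp2]; nlinarith
  have f1 := (h.lower N₁ h₁ a Y hY0 (by linarith)).trans (hV N₁ (by omega))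
  have f2 := (h.lower N₂ h₂ b Y hY0 (by linarith)).trans (hV N₂ (by omega))
  have f3 := h.split N₁ N₂ h₁ h₂ m a b Y hY0 (by linarith) (by linarith)
  have hrA : r ≤ A := by
    have := hr₁.trans (h.μA N₁)
    exact le_of_mul_le_mul_right this hN₁
  have f4 : m / Y ^ 2 ≤ 1 / 16 := by
    rw [div_le_iff₀ (by positivity)]
    calc (m:ℝ) ≤ r * (N₁ + N₂) := by linarith
      _ ≤ A * (N₁ + N₂) := by gcongr
      _ = 1 * (A * 1) * s ^ 6 := by rw [hs6]; ring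
      _ ≤ σ ^ 2 * (A * A) * s ^ 10 := by
        gcongr
        · exact one_le_pow₀ hσ
        · norm_num
      _ = _ := by rw [hY]; ring
  by_contra hc
  push Not at hc
  have f5 := h.upper (N₁ + N₂) (by omega) m Y hY0 (by linarith)
  have f6 := hV (N₁ + N₂) le_rfl
  have f7 : (1 / 2 : ℝ) ^ (N₁ + N₂) ≤ (1 / 2) ^ 1 :=
    pow_le_pow_of_le_one (by norm_num) (by norm_num) (by omega)
  linarith

lemma t_split (N₁ N₂ : ℕ) (h₁ : 0 < N₁) (h₂ : 0 < N₂) (h₃ : N₁ ≤ 3 * N₂) (h₄ : N₂ ≤ 3 * N₁)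
    (t : ℝ) (ht₁ : t ≤ μ N₁ / N₁ - 24 * (52 * σ * A) / s6 N₁)
    (ht₂ : t ≤ μ N₂ / N₂ - 24 * (52 * σ * A) / s6 N₂) :
    t ≤ μ (N₁ + N₂) / (N₁ + N₂ : ℕ) - 24 * (52 * σ * A) / s6 (N₁ + N₂) := by
  have hA := h.hA
  have hσ := h.hσ
  have hN₁ : (0:ℝ) < N₁ := by exact_mod_cast h₁
  have hN₂ : (0:ℝ) < N₂ := by exact_mod_cast h₂
  have h₃' : (N₁:ℝ) ≤ 3 * N₂ := by exact_mod_cast h₃
  have h₄' : (N₂:ℝ) ≤ 3 * N₁ := by exact_mod_cast h₄
  have hs := one_le_s6 (n := N₁ + N₂) (by omega)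
  have hs6 := s6_pow (N₁ + N₂)
  push_cast at hs6 ⊢
  set s := s6 (N₁ + N₂) with hsdef
  set D := 52 * σ * A with hD
  have hD0 : 0 < D := by positivity
  have key : ∀ n : ℕ, 0 < n → (n:ℝ) ≤ 3 / 4 * (N₁ + N₂) → t ≤ μ n / n - 24 * D / s6 n →
      (t + 25 * D / s) * n ≤ μ n := by
    intro n hn hn' ht
    have hn0 : (0:ℝ) < n := by exact_mod_cast hn
    have h1 : s6 n ≤ 24 / 25 * s := s6_le (by norm_num) (by push_cast; nlinarith)
    have h2 := one_le_s6 hn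
    have h3 : 25 * D / s ≤ 24 * D / s6 n := by
      rw [div_le_div_iff₀ (by linarith) (by linarith)]; nlinarith
    rw [← le_div_iff₀ hn0]; linarith
  have h5 := h.mu_split N₁ N₂ h₁ h₂ h₃ h₄ (t + 25 * D / s) (key N₁ h₁ (by linarith) ht₁)
    (key N₂ h₂ (by linarith) ht₂)
  rw [le_sub_iff_add_le, le_div_iff₀ (by positivity)]
  have h6 : 13 * (4 * σ * A * s ^ 5) = D / s * (N₁ + N₂) := by
    rw [← hs6, hD]; field_simp; ring
  rw [← hsdef, h6] at h5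
  calc (t + 24 * D / s) * (N₁ + N₂) = (t + 25 * D / s) * (N₁ + N₂) - D / s * (N₁ + N₂) := by ring
    _ ≤ _ := h5

lemma t_block (n : ℕ) (hn : 8 ≤ n) (t : ℝ) (ht₁ : t ≤ μ n / n - 24 * (52 * σ * A) / s6 n)
    (ht₂ : t ≤ μ (n + 1) / (n + 1 : ℕ) - 24 * (52 * σ * A) / s6 (n + 1)) (q : ℕ) :
    1 ≤ q → ∀ j ≤ q, t ≤ μ (q * n + j) / (q * n + j : ℕ) - 24 * (52 * σ * A) / s6 (q * n + j) := by
  induction q using Nat.strong_induction_on with
  | _ q ih =>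
    intro hq j hj
    by_cases hq1 : q = 1
    · subst hq1
      rw [one_mul]
      interval_cases j
      · exact ht₁
      · exact ht₂
    · obtain ⟨q₁, q₂, rfl, hq₁, hq₂, hq₃⟩ : ∃ q₁ q₂, q = q₁ + q₂ ∧ 1 ≤ q₁ ∧ q₁ ≤ q₂ ∧ q₂ ≤ 2 * q₁ :=
        ⟨q / 2, q - q / 2, by omega, by omega, by omega, by omega⟩
      obtain ⟨j₁, j₂, rfl, hj₁, hj₂⟩ : ∃ j₁ j₂, j = j₁ + j₂ ∧ j₁ ≤ q₁ ∧ j₂ ≤ q₂ :=
        ⟨min j q₁, j - min j q₁, by omega, by omega, by omega⟩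
      have e : (q₁ + q₂) * n + (j₁ + j₂) = (q₁ * n + j₁) + (q₂ * n + j₂) := by ring
      rw [e]
      have a1 : q₁ * 8 ≤ q₁ * n := Nat.mul_le_mul_left _ hn
      have a2 : q₂ * 8 ≤ q₂ * n := Nat.mul_le_mul_left _ hn
      have a3 : q₁ * n ≤ q₂ * n := Nat.mul_le_mul_right _ hq₂
      have a4 : q₂ * n ≤ 2 * (q₁ * n) := by rw [← mul_assoc]; exact Nat.mul_le_mul_right _ hq₃
      exact h.t_split _ _ (by omega) (by omega) (by omega) (by omega) t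
        (ih q₁ (by omega) hq₁ j₁ hj₁) (ih q₂ (by omega) (by omega) j₂ hj₂)

lemma t_large (n : ℕ) (hn : 8 ≤ n) (t : ℝ) (ht₁ : t ≤ μ n / n - 24 * (52 * σ * A) / s6 n)
    (ht₂ : t ≤ μ (n + 1) / (n + 1 : ℕ) - 24 * (52 * σ * A) / s6 (n + 1)) (N : ℕ) (hN : n * n ≤ N) :
    t ≤ μ N / N := by
  have h1 : n ≤ N / n := (Nat.le_div_iff_mul_le (by omega)).2 hN
  have h2 := h.t_block n hn t ht₁ ht₂ (N / n) (by omega) (N % n)
    ((Nat.mod_lt N (by omega : 0 < n)).le.trans h1)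
  rw [Nat.div_add_mod'] at h2
  have hA := h.hA
  have hσ := h.hσ
  have h3 : 0 ≤ 24 * (52 * σ * A) / s6 N := div_nonneg (by positivity) (s6_nonneg N)
  linarith

omit h in
lemma const_div_s6 (C : ℝ) : Tendsto (fun n => C / s6 n) atTop (𝓝 0) :=
  s6_tendsto.const_div_atTop C

omit h in
lemma V_tendsto (σ ε : ℝ) (hε : 0 < ε) :
    Tendsto (fun n : ℕ => (σ * s6 n ^ 5) ^ 2 / (ε * n) ^ 2) atTop (𝓝 0) := by
  have h1 := (const_div_s6 (σ / ε)).pow 2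
  rw [zero_pow two_ne_zero] at h1
  refine h1.congr' ?_
  filter_upwards [eventually_gt_atTop 0] with n hn
  have := one_le_s6 hn
  rw [← s6_pow n]
  field_simp

omit h in
lemma half_tendsto : Tendsto (fun n : ℕ => (1 / 2 : ℝ) ^ n) atTop (𝓝 0) :=
  tendsto_pow_atTop_nhds_zero_of_lt_one (by norm_num) (by norm_num)

lemma mu_succ (ε : ℝ) (hε : 0 < ε) :
    ∀ᶠ n in atTop, μ n - 3 * ε * n ≤ μ (n + 1) := by
  have hA := h.hA
  have h1 := (V_tendsto σ ε hε).eventually (gt_mem_nhds (show (0:ℝ) < 1 / 2 by norm_num))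
  have h2 := (((V_tendsto σ ε hε).add half_tendsto).comp (tendsto_add_atTop_nat 1)).eventually
    (gt_mem_nhds (show (0:ℝ) + 0 < Real.exp (-(2 * A)) * (1 / 2) by
      rw [add_zero]; positivity))
  filter_upwards [h1, h2, eventually_gt_atTop 0] with n h1 h2 hn
  have hn0 : (1:ℝ) ≤ n := by exact_mod_cast hn
  have hεn : 0 < ε * n := by positivity
  by_cases hneg : μ n - ε * n < 0
  · linarith [h.μ0 (n + 1)]
  push Not at hneg
  set m := ⌊μ n - ε * n⌋₊ with hm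
  have hm1 : (m:ℝ) ≤ μ n - ε * n := Nat.floor_le hneg
  have hm2 : μ n - ε * n < m + 1 := Nat.lt_floor_add_one _
  have f1 := h.lower n hn m _ hεn (by linarith)
  have f2 := h.succ n hn m
  have f3 : Real.exp (-(2 * A)) ≤ (n / (n + 1) : ℝ) ^ m := by
    have e1 : (n / (n + 1) : ℝ) = 1 - 1 / (n + 1) := by field_simp; ring
    have e2 := exp_le_one_sub (x := 1 / (n + 1 : ℝ)) (by positivity)
      (by rw [div_le_div_iff₀ (by positivity) (by norm_num)]; linarith)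
    rw [e1]
    refine le_trans ?_ (pow_le_pow_left₀ (Real.exp_pos _).le e2 m)
    rw [← Real.exp_nat_mul, Real.exp_le_exp]
    have e3 : m * (1 / (n + 1 : ℝ)) ≤ A := by
      rw [mul_one_div, div_le_iff₀ (by positivity)]
      nlinarith [h.μA n]
    linarith
  have f4 : Real.exp (-(2 * A)) * (1 / 2) ≤ P (n + 1) m :=
    le_trans (mul_le_mul f3 (by linarith) (by norm_num) (by positivity)) f2
  by_contra hc
  push Not at hc
  have f5 := h.upper (n + 1) (by omega) m (ε * (n + 1 : ℕ)) (by positivity)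
    (by push_cast; nlinarith)
  simp only [Function.comp] at h2
  linarith

lemma r_succ (ε : ℝ) (hε : 0 < ε) :
    ∀ᶠ n : ℕ in atTop, μ n / n - ε ≤ μ (n + 1) / (n + 1 : ℕ) := by
  have hA := h.hA
  have h2 := (tendsto_natCast_atTop_atTop (R := ℝ)).eventually (eventually_ge_atTop (2 * A / ε))
  filter_upwards [h.mu_succ (ε / 6) (by positivity), h2, eventually_gt_atTop 0] with n h1 h2 hn
  have hn0 : (1:ℝ) ≤ n := by exact_mod_cast hn
  push_cast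
  rw [le_div_iff₀ (by positivity)]
  have e1 : μ n / n ≤ A := by rw [div_le_iff₀ (by positivity)]; exact h.μA n
  have e2 : μ n / n * n = μ n := by field_simp
  rw [div_le_iff₀ hε] at h2
  nlinarith

lemma r_tendsto : ∃ α, Tendsto (fun n : ℕ => μ n / n) atTop (𝓝 α) := by
  have hA := h.hA
  set r : ℕ → ℝ := fun n => μ n / n with hr
  have hr0 : ∀ n, 0 ≤ r n := fun n => div_nonneg (h.μ0 n) (Nat.cast_nonneg n)
  have hrA : ∀ n, r n ≤ A := fun n => by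
    rcases Nat.eq_zero_or_pos n with rfl | hn
    · simp [hr]; linarith
    · exact (div_le_iff₀ (by exact_mod_cast hn)).2 (h.μA n)
  have hb1 : IsBoundedUnder (· ≤ ·) atTop r := isBoundedUnder_of ⟨A, hrA⟩
  have hb2 : IsBoundedUnder (· ≥ ·) atTop r := isBoundedUnder_of ⟨0, hr0⟩
  refine ⟨limsup r atTop, tendsto_order.2 ⟨fun a ha => ?_, fun a ha => eventually_lt_of_limsup_lt ha hb1⟩⟩
  obtain ⟨ε, hε, hε'⟩ : ∃ ε > 0, a + 3 * ε < limsup r atTop :=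
    ⟨(limsup r atTop - a) / 4, by linarith, by linarith⟩
  have h1 := frequently_lt_of_lt_limsup hb2.isCoboundedUnder_le hε'
  have h2 := (const_div_s6 (24 * (52 * σ * A))).eventually (gt_mem_nhds hε)
  have h3 := ((const_div_s6 (24 * (52 * σ * A))).comp (tendsto_add_atTop_nat 1)).eventually
    (gt_mem_nhds hε)
  obtain ⟨n, hn1, hn2, hn3, hn4, hn5⟩ :=
    (h1.and_eventually (h2.and (h3.and ((h.r_succ ε hε).and (eventually_ge_atTop 8))))).exists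
  simp only [Function.comp] at hn3
  filter_upwards [eventually_ge_atTop (n * n)] with N hN
  have := h.t_large n hn5 (a + ε) (by simp only [hr] at hn1; linarith)
    (by simp only [hr] at hn1; linarith) N hN
  simp only [hr]
  linarith

theorem threshold : ∃ α : ℝ, 0 < α ∧
    (∀ c : ℝ, 0 ≤ c → c < α → Tendsto (fun n : ℕ => P n ⌊c * n⌋₊) atTop (𝓝 1)) ∧
    (∀ c : ℝ, α < c → Tendsto (fun n : ℕ => P n ⌊c * n⌋₊) atTop (𝓝 0)) := by
  obtain ⟨α, hα⟩ := h.r_tendsto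
  have hup : ∀ c, α < c → Tendsto (fun n : ℕ => P n ⌊c * n⌋₊) atTop (𝓝 0) := by
    intro c hc
    obtain ⟨ε, hε, hε'⟩ : ∃ ε > 0, α < c - ε := ⟨(c - α) / 2, by linarith, by linarith⟩
    have h1 := (V_tendsto σ ε hε).add half_tendsto
    rw [add_zero] at h1
    refine tendsto_of_tendsto_of_tendsto_of_le_of_le' tendsto_const_nhds h1
      (Eventually.of_forall fun n => h.P0 _ _) ?_
    filter_upwards [hα.eventually (gt_mem_nhds hε'), eventually_gt_atTop 0] with n h2 hn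
    have hn0 : (0:ℝ) < n := by exact_mod_cast hn
    rw [div_lt_iff₀ hn0] at h2
    refine h.upper n hn _ _ (by positivity) ?_
    have := Nat.lt_floor_add_one (c * n)
    nlinarith
  refine ⟨α, ?_, ?_, hup⟩
  · by_contra hc
    push Not at hc
    have h1 := (hup (1 / 27) (by linarith)).eventually (gt_mem_nhds (show (0:ℝ) < 1 / 2 by norm_num))
    obtain ⟨n, h2, hn⟩ := (h1.and (eventually_gt_atTop 0)).exists
    have h3 : (27:ℝ) * ⌊(1 / 27 : ℝ) * n⌋₊ ≤ n := by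
      have := Nat.floor_le (show 0 ≤ (1 / 27 : ℝ) * n by positivity)
      linarith
    have h4 := h.pos n hn ⌊(1 / 27 : ℝ) * n⌋₊ (by exact_mod_cast h3)
    linarith
  · intro c hc0 hc
    obtain ⟨ε, hε, hε'⟩ : ∃ ε > 0, c + ε < α := ⟨(α - c) / 2, by linarith, by linarith⟩
    have h1 := (V_tendsto σ ε hε).const_sub 1
    rw [sub_zero] at h1
    refine tendsto_of_tendsto_of_tendsto_of_le_of_le' h1 tendsto_const_nhds ?_
      (Eventually.of_forall fun n => h.P1 _ _)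
    filter_upwards [hα.eventually (lt_mem_nhds hε'), eventually_gt_atTop 0] with n h2 hn
    have hn0 : (0:ℝ) < n := by exact_mod_cast hn
    rw [lt_div_iff₀ hn0] at h2
    have h3 := Nat.floor_le (show 0 ≤ c * n by positivity)
    have := h.lower n hn ⌊c * n⌋₊ (ε * n) (by positivity) (by nlinarith)
    linarith

end Data

end Vale.Agent.P170
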