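import Mathlib

open Finset
open scoped BigOperators

set_option linter.unusedSectionVars false

namespace Vale.Agent.P170

variable {X : Type*}

open Classical in
noncomputable def chi (S : Set X) : ℝ := if S.Nonempty then 1 else 0

lemma chi_nonneg (S : Set X) : 0 ≤ chi S := by unfold chi; split_ifs <;> norm_num
lemma chi_le_one (S : Set X) : chi S ≤ 1 := by unfold chi; split_ifs <;> norm_num
lemma chi_of_nonempty {S : Set X} (h : S.Nonempty) : chi S = 1 := by simp [chi, h]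
lemma chi_empty : chi (∅ : Set X) = 0 := by simp [chi]
lemma chi_mono {S S' : Set X} (h : S ⊆ S') : chi S ≤ chi S' := by
  by_cases hS : S.Nonempty
  · rw [chi_of_nonempty hS, chi_of_nonempty (hS.mono h)]
  · rw [Set.not_nonempty_iff_eq_empty.1 hS, chi_empty]; exact chi_nonneg _

variable {Γ : Type*} [Fintype Γ]

noncomputable def Av (φ : Γ → Set X) (f : Set X → ℝ) (S : Set X) : ℝ := 𝔼 c, f (S ∩ φ c)

lemma Av_mono (φ : Γ → Set X) : Monotone (Av φ) := by
  intro f g h S
  exact expect_le_expect fun c _ => h _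

lemma Av_le_of (φ : Γ → Set X) {f g : Set X → ℝ} {S : Set X}
    (h : ∀ S' ⊆ S, f S' ≤ g S') : Av φ f S ≤ Av φ g S :=
  expect_le_expect fun _ _ => h _ Set.inter_subset_left

lemma Av_comm {Γ' : Type*} [Fintype Γ'] (φ : Γ → Set X) (ψ : Γ' → Set X) (f : Set X → ℝ) :
    Av φ (Av ψ f) = Av ψ (Av φ f) := by
  funext S
  unfold Av
  rw [expect_comm]
  refine expect_congr rfl fun c _ => expect_congr rfl fun c' _ => ?_
  rw [Set.inter_right_comm]

lemma Av_add (φ : Γ → Set X) (f g : Set X → ℝ) (S : Set X) :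
    Av φ (fun S => f S + g S) S = Av φ f S + Av φ g S := by
  unfold Av; rw [expect_add_distrib]

lemma Av_sub (φ : Γ → Set X) (f g : Set X → ℝ) (S : Set X) :
    Av φ (fun S => f S - g S) S = Av φ f S - Av φ g S := by
  unfold Av; rw [expect_sub_distrib]

lemma Av_mul (φ : Γ → Set X) (a : ℝ) (f : Set X → ℝ) (S : Set X) :
    Av φ (fun S => a * f S) S = a * Av φ f S := by
  unfold Av; rw [mul_expect]

lemma Av_const [Nonempty Γ] (φ : Γ → Set X) (a : ℝ) (S : Set X) :
    Av φ (fun _ => a) S = a := by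
  unfold Av; rw [Fintype.expect_const]

lemma Av_nonneg (φ : Γ → Set X) {f : Set X → ℝ} (h : ∀ S, 0 ≤ f S) (S : Set X) :
    0 ≤ Av φ f S := expect_nonneg fun _ _ => h _

lemma Av_empty [Nonempty Γ] (φ : Γ → Set X) (f : Set X → ℝ) : Av φ f ∅ = f ∅ := by
  unfold Av; simp

lemma iter_ge (A B : (Set X → ℝ) → (Set X → ℝ)) (hA : Monotone A) (hB : Monotone B)
    (hc : ∀ f, A (B f) = B (A f)) (g : Set X → ℝ) (h : B g ≤ A g) (m : ℕ) :
    B^[m] g ≤ A^[m] g := by
  induction m with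
  | zero => exact le_rfl
  | succ m ih =>
    have h1 : A^[m] (B g) = B (A^[m] g) :=
      (Function.Commute.iterate_left (f := A) (g := B) hc m) g
    calc B^[m+1] g = B (B^[m] g) := Function.iterate_succ_apply' _ _ _
      _ ≤ B (A^[m] g) := hB ih
      _ = A^[m] (B g) := h1.symm
      _ ≤ A^[m] (A g) := (hA.iterate m) h
      _ = A^[m+1] g := (Function.iterate_succ_apply _ _ _).symm

/-- survival probability after `m` steps -/
noncomputable def u (φ : Γ → Set X) (m : ℕ) : Set X → ℝ := (Av φ)^[m] chi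

lemma u_zero (φ : Γ → Set X) : u φ 0 = chi := rfl
lemma u_succ (φ : Γ → Set X) (m : ℕ) : u φ (m+1) = Av φ (u φ m) :=
  Function.iterate_succ_apply' _ _ _

lemma u_nonneg (φ : Γ → Set X) (m : ℕ) (S : Set X) : 0 ≤ u φ m S := by
  induction m generalizing S with
  | zero => exact chi_nonneg _
  | succ m ih => rw [u_succ]; exact Av_nonneg _ ih _

variable [Nonempty Γ]

lemma Av_chi_le (φ : Γ → Set X) (S : Set X) : Av φ chi S ≤ chi S := by
  calc Av φ chi S ≤ Av φ (fun _ => chi S) S := Av_le_of φ fun S' h => chi_mono h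
    _ = chi S := Av_const _ _ _

lemma u_succ_le (φ : Γ → Set X) (m : ℕ) (S : Set X) : u φ (m+1) S ≤ u φ m S := by
  induction m generalizing S with
  | zero => rw [u_succ, u_zero]; exact Av_chi_le _ _
  | succ m ih => rw [u_succ, u_succ φ m]; exact Av_mono φ (fun S => by simpa [u_succ] using ih S) S

lemma u_anti (φ : Γ → Set X) (S : Set X) : Antitone fun m => u φ m S :=
  antitone_nat_of_succ_le fun m => u_succ_le φ m S

lemma u_le_chi (φ : Γ → Set X) (m : ℕ) (S : Set X) : u φ m S ≤ chi S :=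
  u_anti φ S (Nat.zero_le m)

lemma u_le_one (φ : Γ → Set X) (m : ℕ) (S : Set X) : u φ m S ≤ 1 :=
  (u_le_chi φ m S).trans (chi_le_one _)

lemma u_empty (φ : Γ → Set X) (m : ℕ) : u φ m ∅ = 0 :=
  le_antisymm (by simpa [chi_empty] using u_le_chi φ m ∅) (u_nonneg _ _ _)

/-- expected truncated lifetime -/
noncomputable def T (φ : Γ → Set X) : ℕ → Set X → ℝ
  | 0 => fun _ => 0
  | L+1 => fun S => chi S + Av φ (T φ L) S

omit [Nonempty Γ] in
lemma T_eq_sum (φ : Γ → Set X) (L : ℕ) (S : Set X) : T φ L S = ∑ s ∈ range L, u φ s S := by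
  induction L generalizing S with
  | zero => simp [T]
  | succ L ih =>
    rw [sum_range_succ', u_zero]
    simp only [T, u_succ]
    rw [add_comm]
    congr 1
    unfold Av
    simp only [ih]
    rw [expect_sum_comm]

lemma T_nonneg (φ : Γ → Set X) (L : ℕ) (S : Set X) : 0 ≤ T φ L S := by
  rw [T_eq_sum]; exact sum_nonneg fun _ _ => u_nonneg _ _ _

lemma T_le (φ : Γ → Set X) (L : ℕ) (S : Set X) : T φ L S ≤ L := by
  rw [T_eq_sum]
  calc _ ≤ ∑ _s ∈ range L, (1:ℝ) := sum_le_sum fun _ _ => u_le_one _ _ _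
    _ = L := by simp

lemma T_empty (φ : Γ → Set X) (L : ℕ) : T φ L ∅ = 0 := by
  rw [T_eq_sum]; simp [u_empty]

lemma T_mono_L (φ : Γ → Set X) {L L' : ℕ} (h : L ≤ L') (S : Set X) : T φ L S ≤ T φ L' S := by
  rw [T_eq_sum, T_eq_sum]
  exact sum_le_sum_of_subset_of_nonneg (range_mono h) fun _ _ _ => u_nonneg _ _ _

/-- hazard -/
noncomputable def hz (φ : Γ → Set X) (S : Set X) : ℝ := chi S - Av φ chi S

lemma hz_nonneg (φ : Γ → Set X) (S : Set X) : 0 ≤ hz φ S := sub_nonneg.2 (Av_chi_le φ S)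

lemma hz_eq (φ : Γ → Set X) (S : Set X) : hz φ S = 𝔼 c, (chi S - chi (S ∩ φ c)) := by
  rw [expect_sub_distrib, Fintype.expect_const]; rfl

lemma hz_anti (φ : Γ → Set X) {S S' : Set X} (h : S' ⊆ S) (h' : S'.Nonempty) :
    hz φ S ≤ hz φ S' := by
  unfold hz
  rw [chi_of_nonempty h', chi_of_nonempty (h'.mono h)]
  have : Av φ chi S' ≤ Av φ chi S :=
    expect_le_expect fun c _ => chi_mono (Set.inter_subset_inter_left _ h)
  linarith

lemma hz_mul_T (φ : Γ → Set X) (S : Set X) (L : ℕ) :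
    ∀ S' ⊆ S, hz φ S * T φ L S' ≤ chi S' := by
  induction L with
  | zero => intro S' _; simp [T, chi_nonneg]
  | succ L ih =>
    intro S' h
    by_cases hS : S'.Nonempty
    · have h1 : hz φ S * Av φ (T φ L) S' ≤ Av φ chi S' := by
        rw [← Av_mul]; exact Av_le_of φ fun S'' h'' => ih S'' (h''.trans h)
      have h2 := hz_anti φ h hS
      simp only [T, mul_add]
      rw [chi_of_nonempty hS] at *
      unfold hz at h2 ⊢
      rw [chi_of_nonempty hS] at h2
      unfold hz at h1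
      linarith
    · rw [Set.not_nonempty_iff_eq_empty.1 hS, T_empty, chi_empty]; simp

omit [Nonempty Γ] in
lemma delta_succ (φ : Γ → Set X) (L : ℕ) (S A : Set X) :
    T φ (L+1) S - T φ (L+1) (S ∩ A) =
      (chi S - chi (S ∩ A)) + 𝔼 c, (T φ L (S ∩ φ c) - T φ L (S ∩ φ c ∩ A)) := by
  simp only [T]
  rw [expect_sub_distrib]
  unfold Av
  simp only [Set.inter_right_comm S A]
  ring

noncomputable def G (φ : Γ → Set X) : ℕ → Set X → Set X → ℝ
  | 0 => fun _ _ => 0
  | L+1 => fun S A => 2 * (chi S - chi (S ∩ A)) * T φ (L+1) S + 𝔼 c, G φ L (S ∩ φ c) A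

lemma sq_expect_le (f : Γ → ℝ) : (𝔼 c, f c) ^ 2 ≤ 𝔼 c, f c ^ 2 := by
  have h : 0 ≤ 𝔼 c, (f c - 𝔼 c', f c') ^ 2 := expect_nonneg fun _ _ => sq_nonneg _
  have : 𝔼 c, (f c - 𝔼 c', f c') ^ 2 = 𝔼 c, f c ^ 2 - (𝔼 c, f c) ^ 2 := by
    set m := 𝔼 c', f c' with hm
    have : ∀ c, (f c - m) ^ 2 = f c ^ 2 - (2 * m) * f c + m ^ 2 := fun c => by ring
    simp only [this]
    rw [expect_add_distrib, expect_sub_distrib, ← mul_expect, Fintype.expect_const, ← hm]
    ring
  linarith

lemma delta_sq_le (φ : Γ → Set X) (L : ℕ) (S A : Set X) :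
    (T φ L S - T φ L (S ∩ A)) ^ 2 ≤ G φ L S A := by
  induction L generalizing S with
  | zero => simp [T, G]
  | succ L ih =>
    have h1 : (𝔼 c, (T φ L (S ∩ φ c) - T φ L (S ∩ φ c ∩ A))) ^ 2 ≤ 𝔼 c, G φ L (S ∩ φ c) A :=
      (sq_expect_le _).trans (expect_le_expect fun c _ => ih _)
    rw [delta_succ]
    simp only [G]
    by_cases hA : (S ∩ A).Nonempty
    · rw [chi_of_nonempty hA, chi_of_nonempty (hA.mono Set.inter_subset_left)]
      simpa using h1
    · have hA' := Set.not_nonempty_iff_eq_empty.1 hA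
      by_cases hS : S.Nonempty
      · have h2 : 𝔼 c, (T φ L (S ∩ φ c) - T φ L (S ∩ φ c ∩ A)) = Av φ (T φ L) S := by
          refine expect_congr rfl fun c _ => ?_
          rw [Set.inter_right_comm, hA']; simp [T_empty]
        rw [h2] at h1 ⊢
        rw [hA', chi_empty]
        simp only [T]
        rw [chi_of_nonempty hS]
        nlinarith
      · have hS' := Set.not_nonempty_iff_eq_empty.1 hS
        subst hS'
        simpa [chi_empty] using h1

/-- accumulated values of `β` along the process -/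
noncomputable def B (φ : Γ → Set X) (β : Set X → ℝ) : ℕ → Set X → ℝ
  | 0 => fun _ => 0
  | L+1 => fun S => β S + Av φ (B φ β L) S

omit [Nonempty Γ] in
lemma B_succ_ge (φ : Γ → Set X) {β : Set X → ℝ} (hβ : ∀ S, 0 ≤ β S) (L : ℕ) (S : Set X) :
    B φ β L S ≤ B φ β (L+1) S := by
  induction L generalizing S with
  | zero => simp only [B]; unfold Av; simpa using hβ S
  | succ L ih =>
    have := Av_mono φ (fun S => ih S) S
    simp only [B] at this ⊢
    linarith

lemma expect_G_le (φ : Γ → Set X) {β : Set X → ℝ} {lam : ℝ} {M : ℕ}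
    (h : ∀ L ≤ M, ∀ S, hz φ S * T φ L S ≤ lam * β S) (L : ℕ) (hL : L ≤ M) (S : Set X) :
    𝔼 c, G φ L S (φ c) ≤ 2 * lam * B φ β L S := by
  induction L generalizing S with
  | zero => simp [G, B]
  | succ L ih =>
    simp only [G, B]
    rw [expect_add_distrib, expect_comm, ← expect_mul, ← mul_expect, ← hz_eq]
    have h1 := h (L+1) hL S
    have h2 : 𝔼 c', 𝔼 c, G φ L (S ∩ φ c') (φ c) ≤ 2 * lam * Av φ (B φ β L) S := by
      rw [← Av_mul]
      exact expect_le_expect fun c _ => ih (by omega) _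
    nlinarith

noncomputable def W (φ : Γ → Set X) : ℕ → Set X → ℝ
  | 0 => fun _ => 0
  | L+1 => fun S => Av φ (W φ L) S + 𝔼 c, (T φ L S - T φ L (S ∩ φ c)) ^ 2

lemma W_le (φ : Γ → Set X) {β : Set X → ℝ} (hβ : ∀ S, 0 ≤ β S) {lam : ℝ} (hlam : 0 ≤ lam) {M : ℕ}
    (h : ∀ L ≤ M, ∀ S, hz φ S * T φ L S ≤ lam * β S) (L : ℕ) (hL : L ≤ M) (S : Set X) :
    W φ L S ≤ 2 * lam * L * B φ β L S := by
  induction L generalizing S with
  | zero => simp [W]
  | succ L ih =>
    have h1 : Av φ (W φ L) S ≤ 2 * lam * L * Av φ (B φ β L) S := by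
      rw [← Av_mul]; exact Av_mono φ (fun S => ih (by omega) S) S
    have h2 : 𝔼 c, (T φ L S - T φ L (S ∩ φ c)) ^ 2 ≤ 2 * lam * B φ β L S :=
      (expect_le_expect fun c _ => delta_sq_le φ L S _).trans (expect_G_le φ h L (by omega) S)
    have h3 := B_succ_ge φ hβ L S
    have h4 : Av φ (B φ β L) S ≤ B φ β (L+1) S := by
      simp only [B]; linarith [hβ S]
    simp only [W]
    push_cast
    have h5 : 2 * lam * L * Av φ (B φ β L) S ≤ 2 * lam * L * B φ β (L+1) S :=
      mul_le_mul_of_nonneg_left h4 (by positivity)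
    have h6 : 2 * lam * B φ β L S ≤ 2 * lam * B φ β (L+1) S :=
      mul_le_mul_of_nonneg_left h3 (by positivity)
    linarith

/-- second moment of the truncated lifetime about `a` -/
noncomputable def Q (φ : Γ → Set X) : ℕ → Set X → ℝ → ℝ
  | 0 => fun _ a => a ^ 2
  | L+1 => fun S a => 𝔼 c, Q φ L (S ∩ φ c) (a - chi S)

lemma var_bound (f : Γ → ℝ) (a b : ℝ) :
    𝔼 c, (f c - a) ^ 2 ≤ 𝔼 c, (b - f c) ^ 2 + (𝔼 c, f c - a) ^ 2 := by
  set m := 𝔼 c', f c' with hm
  have h1 : ∀ c, (f c - a) ^ 2 = (b - f c) ^ 2 + ((2 * (b - a)) * f c + (a ^ 2 - b ^ 2)) :=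
    fun c => by ring
  simp only [h1]
  rw [expect_add_distrib, expect_add_distrib, ← mul_expect, Fintype.expect_const, ← hm]
  nlinarith [sq_nonneg (m - b)]

lemma Q_le (φ : Γ → Set X) (L : ℕ) (S : Set X) (a : ℝ) :
    Q φ L S a ≤ W φ L S + (T φ L S - a) ^ 2 := by
  induction L generalizing S a with
  | zero => simp [Q, W, T]
  | succ L ih =>
    simp only [Q, W, T]
    have h1 : 𝔼 c, Q φ L (S ∩ φ c) (a - chi S) ≤
        Av φ (W φ L) S + 𝔼 c, (T φ L (S ∩ φ c) - (a - chi S)) ^ 2 := by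
      unfold Av; rw [← expect_add_distrib]; exact expect_le_expect fun c _ => ih _ _
    have h2 := var_bound (fun c => T φ L (S ∩ φ c)) (a - chi S) (T φ L S)
    have h3 : chi S + Av φ (T φ L) S - a = 𝔼 c, T φ L (S ∩ φ c) - (a - chi S) := by
      unfold Av; ring
    rw [h3]
    linarith

lemma Q_empty (φ : Γ → Set X) (L : ℕ) (a : ℝ) : Q φ L ∅ a = a ^ 2 := by
  induction L with
  | zero => rfl
  | succ L ih => simp [Q, chi_empty, ih]

lemma Q_ge_of_nonpos (φ : Γ → Set X) (L : ℕ) (S : Set X) (a : ℝ) (ha : a ≤ 0) :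
    a ^ 2 ≤ Q φ L S a := by
  induction L generalizing S a with
  | zero => exact le_rfl
  | succ L ih =>
    simp only [Q]
    have h0 := chi_nonneg S
    calc a ^ 2 ≤ (a - chi S) ^ 2 := by nlinarith
      _ = 𝔼 _c : Γ, (a - chi S) ^ 2 := (Fintype.expect_const _).symm
      _ ≤ _ := expect_le_expect fun c _ => ih _ _ (by linarith)

omit [Nonempty Γ] in
lemma Q_nonneg (φ : Γ → Set X) (L : ℕ) (S : Set X) (a : ℝ) : 0 ≤ Q φ L S a := by
  induction L generalizing S a with
  | zero => exact sq_nonneg _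
  | succ L ih => exact expect_nonneg fun _ _ => ih _ _

lemma upper_tail (φ : Γ → Set X) (m L : ℕ) (hm : m < L) (S : Set X) (a : ℝ) (ha : a ≤ m + 1) :
    u φ m S * (m + 1 - a) ^ 2 ≤ Q φ L S a := by
  induction m generalizing L S a with
  | zero =>
    obtain ⟨L, rfl⟩ : ∃ L', L = L' + 1 := ⟨L - 1, by omega⟩
    by_cases hS : S.Nonempty
    · simp only [u_zero, Q, chi_of_nonempty hS]
      calc 1 * (((0:ℕ):ℝ) + 1 - a) ^ 2 = 𝔼 _c : Γ, (a - 1) ^ 2 := by
            rw [Fintype.expect_const]; push_cast; ring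
        _ ≤ _ := expect_le_expect fun c _ => Q_ge_of_nonpos _ _ _ _ (by simpa using ha)
    · rw [Set.not_nonempty_iff_eq_empty.1 hS, u_empty, zero_mul]; exact Q_nonneg _ _ _ _
  | succ m ih =>
    obtain ⟨L, rfl⟩ : ∃ L', L = L' + 1 := ⟨L - 1, by omega⟩
    by_cases hS : S.Nonempty
    · simp only [u_succ, Q, chi_of_nonempty hS]
      unfold Av
      rw [expect_mul]
      refine expect_le_expect fun c _ => ?_
      have := ih L (by omega) (S ∩ φ c) (a - 1) (by push_cast at ha; linarith)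
      have e : (((m+1:ℕ):ℝ) + 1 - a) = (m:ℝ) + 1 - (a - 1) := by push_cast; ring
      rw [e]; exact this
    · rw [Set.not_nonempty_iff_eq_empty.1 hS, u_empty, zero_mul]; exact Q_nonneg _ _ _ _

lemma lower_tail (φ : Γ → Set X) (m L : ℕ) (S : Set X) (a : ℝ) (ha : m ≤ a) :
    (1 - u φ m S) * (a - m) ^ 2 ≤ Q φ L S a := by
  induction m generalizing L S a with
  | zero =>
    by_cases hS : S.Nonempty
    · simp only [u_zero, chi_of_nonempty hS, sub_self, zero_mul]; exact Q_nonneg _ _ _ _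
    · rw [Set.not_nonempty_iff_eq_empty.1 hS, u_empty, Q_empty]; simp
  | succ m ih =>
    have hm0 : (0:ℝ) ≤ m := Nat.cast_nonneg m
    have hsq : (a - ((m+1:ℕ):ℝ)) ^ 2 ≤ a ^ 2 := by
      push_cast at ha ⊢; nlinarith
    have hu0 := u_nonneg φ (m+1) S
    have hbase : (1 - u φ (m+1) S) * (a - ((m+1:ℕ):ℝ)) ^ 2 ≤ a ^ 2 := by
      nlinarith [sq_nonneg (a - ((m+1:ℕ):ℝ))]
    by_cases hS : S.Nonempty
    · cases L with
      | zero => exact hbase
      | succ L =>
        simp only [u_succ, Q, chi_of_nonempty hS]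
        have : 1 - Av φ (u φ m) S = 𝔼 c, (1 - u φ m (S ∩ φ c)) := by
          rw [expect_sub_distrib, Fintype.expect_const]; rfl
        rw [this, expect_mul]
        refine expect_le_expect fun c _ => ?_
        have := ih L (S ∩ φ c) (a - 1) (by push_cast at ha; linarith)
        have e : a - ((m+1:ℕ):ℝ) = a - 1 - m := by push_cast; ring
        rw [e]; exact this
    · rw [Set.not_nonempty_iff_eq_empty.1 hS] at hbase ⊢
      rw [Q_empty]; exact hbase

lemma hybrid (φ φ' : Γ → Set X) (R : Set X) (η : ℝ) (M : ℕ)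
    (h : ∀ L < M, ∀ S ⊆ R, Av φ' (T φ L) S - Av φ (T φ L) S ≤ η) (L : ℕ) (hL : L ≤ M) :
    ∀ S ⊆ R, T φ' L S - T φ L S ≤ L * η := by
  induction L with
  | zero => intro S _; simp [T]
  | succ L ih =>
    intro S hS
    have h1 : Av φ' (fun S => T φ' L S - T φ L S) S ≤ Av φ' (fun _ => L * η) S :=
      Av_le_of φ' fun S' h' => ih (by omega) S' (h'.trans hS)
    rw [Av_sub, Av_const] at h1
    have h2 := h L (by omega) S hS
    simp only [T]
    push_cast
    linarith

lemma psi_le (φ : Γ → Set X) (w : Γ → ℝ) (R : Set X) {a a' : ℝ} (ha : 0 ≤ a)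
    (h : ∀ S ⊆ R, 𝔼 c, w c * (chi S - chi (S ∩ φ c)) ≤ a * hz φ S + a') (L : ℕ) :
    ∀ S ⊆ R, 𝔼 c, w c * (T φ L S - T φ L (S ∩ φ c)) ≤ a * chi S + L * a' := by
  induction L with
  | zero => intro S _; simpa [T] using mul_nonneg ha (chi_nonneg S)
  | succ L ih =>
    intro S hS
    simp only [delta_succ, mul_add]
    rw [expect_add_distrib]
    simp only [mul_expect]
    rw [expect_comm]
    have h1 : 𝔼 c', 𝔼 c, w c * (T φ L (S ∩ φ c') - T φ L (S ∩ φ c' ∩ φ c)) ≤
        Av φ (fun S => a * chi S + L * a') S :=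
      expect_le_expect fun c _ => ih _ (Set.inter_subset_left.trans hS)
    rw [Av_add, Av_mul, Av_const] at h1
    have h2 := h S hS
    unfold hz at h2
    push_cast
    linarith

omit [Nonempty Γ] in
lemma u_transport {X' : Type*} (ρ : X → X') (φ' : Γ → Set X') (m : ℕ) (S : Set X) :
    u (fun c => ρ ⁻¹' φ' c) m S = u φ' m (ρ '' S) := by
  induction m generalizing S with
  | zero =>
    simp only [u_zero]
    by_cases hS : S.Nonempty
    · rw [chi_of_nonempty hS, chi_of_nonempty (hS.image ρ)]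
    · rw [Set.not_nonempty_iff_eq_empty.1 hS, Set.image_empty, chi_empty, chi_empty]
  | succ m ih =>
    simp only [u_succ]
    unfold Av
    refine expect_congr rfl fun c _ => ?_
    rw [ih, Set.image_inter_preimage]

omit [Nonempty Γ] in
lemma u_eq_expect (φ : Γ → Set X) (m : ℕ) (S : Set X) :
    u φ m S = 𝔼 F : Fin m → Γ, chi (S ∩ ⋂ i, φ (F i)) := by
  induction m generalizing S with
  | zero => simp [u_zero]
  | succ m ih =>
    rw [u_succ]
    unfold Av
    simp only [ih]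
    rw [← expect_product' , univ_product_univ]
    refine Fintype.expect_equiv (Fin.consEquiv fun _ => Γ) _ _ fun p => ?_
    congr 1
    ext x
    simp [Fin.consEquiv, Fin.forall_fin_succ, and_assoc]

end Vale.Agent.P170
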