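import Mathlib

namespace Vale.Agent.P170

/-- A proper `k`-clause on `n` Boolean variables: a set of `k` literals on `k` distinct variables.
The literal `(i, b)` is true under the assignment `x` when `x i = b`. -/
abbrev ProperClause (n k : ℕ) : Type :=
  {C : Finset (Fin n × Bool) // C.card = k ∧ Set.InjOn Prod.fst (C : Set (Fin n × Bool))}

/-- The formula `F 0 ∧ … ∧ F (m-1)` is satisfiable. -/
def Satisfiable {n k m : ℕ} (F : Fin m → ProperClause n k) : Prop :=
  ∃ x : Fin n → Bool, ∀ i, ∃ l ∈ (F i).1, x l.1 = l.2

/-- `P_{k,n}(m)`: the probability that `m` independent uniform proper `k`-clauses on `n` variables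
form a satisfiable formula. -/
noncomputable def satProb (k n m : ℕ) : ℝ :=
  (Nat.card {F : Fin m → ProperClause n k // Satisfiable F} : ℝ) /
    (Nat.card (Fin m → ProperClause n k) : ℝ)

end Vale.Agent.P170
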