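import Vale.Agent.P170.Interp

open Finset
open scoped BigOperators

set_option linter.unusedSectionVars false

namespace Vale.Agent.P170

variable {ι : Type*} [Fintype ι] [DecidableEq ι] [Nonempty ι]

lemma expect_pi_prod' {Λ : Type*} [Fintype Λ] (k : ℕ) (g : Fin k → Λ → ℝ) :
    𝔼 C : Fin k → Λ, ∏ j, g j (C j) = ∏ j, 𝔼 l, g j l := by
  classical
  simp only [expect_eq_sum_div_card, card_univ]
  rw [prod_div_distrib, prod_univ_sum, Fintype.piFinset_univ]
  simp

lemma hall_pointwise (k m : ℕ) (hm : m ≤ Fintype.card ι) (F : Fin m → Fin k → ι × Bool) :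
    1 - chi (Set.univ ∩ ⋂ i, cl k litc (F i)) ≤
      ∑ J ∈ (univ : Finset (Finset (Fin m))).erase ∅, ∑ W ∈ powersetCard J.card (univ : Finset ι),
        ∏ i, (if i ∈ J then ∏ j, (if (F i j).1 ∈ W then (1:ℝ) else 0) else 1) := by
  classical
  have hnn : ∀ (J : Finset (Fin m)) (W : Finset ι),
      0 ≤ ∏ i, (if i ∈ J then ∏ j, (if (F i j).1 ∈ W then (1:ℝ) else 0) else 1) := by
    intro J W
    refine prod_nonneg fun i _ => ?_
    split_ifs
    · exact prod_nonneg fun j _ => by split_ifs <;> norm_num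
    · norm_num
  set t : Fin m → Finset ι := fun i => univ.image fun j => (F i j).1 with ht
  by_cases h : ∀ s : Finset (Fin m), s.card ≤ (s.biUnion t).card
  · obtain ⟨f, hf, hft⟩ := (all_card_le_biUnion_card_iff_exists_injective t).1 h
    have : ∀ i, ∃ j, (F i j).1 = f i := fun i => by simpa [ht] using hft i
    choose g hg using this
    have hne : (Set.univ ∩ ⋂ i, cl k litc (F i)).Nonempty := by
      refine ⟨Function.extend f (fun i => (F i (g i)).2) (fun _ => true), trivial, ?_⟩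
      refine Set.mem_iInter.2 fun i => Set.mem_iUnion.2 ⟨g i, ?_⟩
      show Function.extend f _ _ (F i (g i)).1 = _
      rw [hg i, hf.extend_apply]
    rw [chi_of_nonempty hne, sub_self]
    exact sum_nonneg fun J _ => sum_nonneg fun W _ => hnn J W
  · push Not at h
    obtain ⟨J, hJ⟩ := h
    have hJne : J ≠ ∅ := by rintro rfl; simp at hJ
    have hJc : J.card ≤ Fintype.card ι := by
      calc J.card ≤ Fintype.card (Fin m) := card_le_univ _
        _ = m := Fintype.card_fin m
        _ ≤ _ := hm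
    obtain ⟨W, hW, hWc⟩ := exists_superset_card_eq hJ.le hJc
    have h1 : ∏ i, (if i ∈ J then ∏ j, (if (F i j).1 ∈ W then (1:ℝ) else 0) else 1) = 1 := by
      refine prod_eq_one fun i _ => ?_
      split_ifs with hi
      · refine prod_eq_one fun j _ => if_pos (hW ?_)
        exact mem_biUnion.2 ⟨i, hi, mem_image.2 ⟨j, mem_univ _, rfl⟩⟩
      · rfl
    calc _ ≤ (1:ℝ) := by linarith [chi_nonneg (Set.univ ∩ ⋂ i, cl k litc (F i))]
      _ = _ := h1.symm
      _ ≤ ∑ W ∈ powersetCard J.card (univ : Finset ι),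
        ∏ i, (if i ∈ J then ∏ j, (if (F i j).1 ∈ W then (1:ℝ) else 0) else 1) :=
          single_le_sum (f := fun W : Finset ι =>
            ∏ i, (if i ∈ J then ∏ j, (if (F i j).1 ∈ W then (1:ℝ) else 0) else 1))
            (fun W _ => hnn J W) (mem_powersetCard.2 ⟨subset_univ _, hWc⟩)
      _ ≤ _ := single_le_sum (f := fun J : Finset (Fin m) => ∑ W ∈ powersetCard J.card (univ : Finset ι),
            ∏ i, (if i ∈ J then ∏ j, (if (F i j).1 ∈ W then (1:ℝ) else 0) else 1))
            (fun J _ => sum_nonneg fun W _ => hnn J W) (mem_erase.2 ⟨hJne, mem_univ _⟩)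

lemma hall_expect (k m : ℕ) (J : Finset (Fin m)) (W : Finset ι) :
    𝔼 F : Fin m → Fin k → ι × Bool,
      ∏ i, (if i ∈ J then ∏ j, (if (F i j).1 ∈ W then (1:ℝ) else 0) else 1) =
      ((W.card / Fintype.card ι : ℝ) ^ k) ^ J.card := by
  classical
  rw [expect_pi_prod' m (fun i (C : Fin k → ι × Bool) =>
    if i ∈ J then ∏ j, (if (C j).1 ∈ W then (1:ℝ) else 0) else 1)]
  have h1 : 𝔼 l : ι × Bool, (if l.1 ∈ W then (1:ℝ) else 0) = W.card / Fintype.card ι := by
    rw [expect_eq_sum_div_card, Fintype.sum_prod_type]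
    have : (0:ℝ) < Fintype.card ι := by exact_mod_cast Fintype.card_pos
    simp only [card_univ, Fintype.card_bool, Fintype.card_prod]
    push_cast
    field_simp
    rw [sum_comm]
    simp [sum_ite_mem]
  have h2 : 𝔼 C : Fin k → ι × Bool, ∏ j, (if (C j).1 ∈ W then (1:ℝ) else 0) =
      (W.card / Fintype.card ι : ℝ) ^ k := by
    rw [expect_pi_prod' k (fun _ (l : ι × Bool) => if l.1 ∈ W then (1:ℝ) else 0)]
    simp [h1, div_pow]
  calc _ = ∏ i : Fin m, (if i ∈ J then (W.card / Fintype.card ι : ℝ) ^ k else 1) := by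
        refine prod_congr rfl fun i _ => ?_
        split_ifs
        · exact h2
        · exact Fintype.expect_const _
    _ = _ := by simp [prod_ite_mem]

lemma choose_mul_le (m j : ℕ) : (m.choose j : ℝ) * j ^ j ≤ (3 * m) ^ j := by
  have h1 : (m.choose j : ℝ) ≤ m ^ j / j.factorial := Nat.choose_le_pow_div j m
  have h2 : (j:ℝ) ^ j / j.factorial ≤ Real.exp j := Real.pow_div_factorial_le_exp _ (Nat.cast_nonneg j) j
  have h3 : Real.exp j ≤ 3 ^ j := by
    rw [← Real.exp_one_pow]
    exact pow_le_pow_left₀ (Real.exp_pos 1).le (by linarith [Real.exp_one_lt_d9]) j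
  calc (m.choose j : ℝ) * j ^ j ≤ m ^ j / j.factorial * j ^ j :=
        mul_le_mul_of_nonneg_right h1 (by positivity)
    _ = m ^ j * ((j:ℝ) ^ j / j.factorial) := by ring
    _ ≤ m ^ j * 3 ^ j := mul_le_mul_of_nonneg_left (h2.trans h3) (by positivity)
    _ = _ := by rw [mul_pow]; ring

lemma hall_term (k m n j : ℕ) (hk : 2 ≤ k) (hn : 0 < n) (hm : 27 * m ≤ n) (hj : j ≤ m) :
    (m.choose j : ℝ) * (n.choose j * ((j / n : ℝ) ^ k) ^ j) ≤ (1 / 3) ^ j := by
  have hn' : (0:ℝ) < n := by exact_mod_cast hn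
  have hjn : (j / n : ℝ) ≤ 1 := by
    rw [div_le_one hn']; exact_mod_cast (by omega : j ≤ n)
  have h1 : ((j / n : ℝ) ^ k) ^ j ≤ ((j / n : ℝ) ^ 2) ^ j :=
    pow_le_pow_left₀ (by positivity) (pow_le_pow_of_le_one (by positivity) hjn hk) j
  have h2 := choose_mul_le m j
  have h3 := choose_mul_le n j
  have hm' : (27:ℝ) * m ≤ n := by exact_mod_cast hm
  calc _ ≤ (m.choose j : ℝ) * (n.choose j * ((j / n : ℝ) ^ 2) ^ j) := by gcongr
    _ = ((m.choose j : ℝ) * j ^ j) * (n.choose j * j ^ j) / (n ^ 2) ^ j := by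
      rw [div_pow, div_pow, ← pow_mul, mul_comm 2 j, pow_mul]; ring
    _ ≤ (3 * m) ^ j * (3 * n) ^ j / (n ^ 2) ^ j := by gcongr
    _ = (9 * m / n) ^ j := by
      rw [← mul_pow, ← div_pow]; congr 1; field_simp; ring
    _ ≤ _ := by
      refine pow_le_pow_left₀ (by positivity) ?_ j
      rw [div_le_iff₀ hn']; linarith

lemma P_ge_half (k n m : ℕ) (hk : 2 ≤ k) (hn : 0 < n) (hm : 27 * m ≤ n) : 1 / 2 ≤ P k n m := by
  have : Nonempty (Fin n) := ⟨⟨0, hn⟩⟩
  have h1 : 1 - P k n m ≤ ∑ J ∈ (univ : Finset (Finset (Fin m))).erase ∅,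
      (n.choose J.card * ((J.card / n : ℝ) ^ k) ^ J.card) := by
    unfold P
    rw [u_eq_expect]
    calc _ = 𝔼 F : Fin m → Fin k → Fin n × Bool, (1 - chi (Set.univ ∩ ⋂ i, cl k litc (F i))) := by
          rw [expect_sub_distrib, Fintype.expect_const]
      _ ≤ _ := expect_le_expect fun F _ => hall_pointwise k m (by simp; omega) F
      _ = _ := by
        rw [expect_sum_comm]
        refine sum_congr rfl fun J _ => ?_
        rw [expect_sum_comm]
        simp only [hall_expect]
        rw [sum_congr rfl (g := fun _ => ((J.card / n : ℝ) ^ k) ^ J.card)]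
        · simp
        · intro W hW
          rw [(mem_powersetCard.1 hW).2, Fintype.card_fin]
  have h2 : ∑ J ∈ (univ : Finset (Finset (Fin m))),
      (n.choose J.card * ((J.card / n : ℝ) ^ k) ^ J.card) ≤ 3 / 2 := by
    rw [← powerset_univ, sum_powerset_apply_card
      (fun j => (n.choose j * ((j / n : ℝ) ^ k) ^ j))]
    simp only [card_univ, Fintype.card_fin, nsmul_eq_mul]
    calc _ ≤ ∑ j ∈ range (m + 1), (1 / 3 : ℝ) ^ j :=
          sum_le_sum fun j hj => hall_term k m n j hk hn hm (by simpa [Nat.lt_succ_iff] using hj)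
      _ ≤ 3 / 2 := by
        rw [geom_sum_eq (by norm_num)]
        have : (0:ℝ) ≤ (1 / 3) ^ (m + 1) := by positivity
        rw [div_le_iff_of_neg (by norm_num)]
        linarith
  rw [← add_sum_erase _ _ (mem_univ ∅)] at h2
  simp only [card_empty, Nat.choose_zero_right, pow_zero, Nat.cast_one, mul_one] at h2
  linarith

end Vale.Agent.P170
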