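import Vale.Agent.P170.Analysis

open Finset Filter Topology
open scoped BigOperators

namespace Vale.Agent.P170

lemma W_fin (k : ℕ) (hk : 3 ≤ k) (A n : ℕ) (hn : 0 < n) :
    W (cl k (litc (ι := Fin n))) (A * n) Set.univ ≤ (k * A * (1 + A) * s6 n ^ 5) ^ 2 := by
  have : Nonempty (Fin n) := ⟨⟨0, hn⟩⟩
  have hs := one_le_s6 hn
  have hs6 := s6_pow n
  have h1 := W_cube (ι := Fin n) k hk (θ := 1 / s6 n ^ 2) (by positivity)
    (by rw [div_le_one (by positivity)]; exact one_le_pow₀ hs) (A * n)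
  refine h1.trans ?_
  simp only [Fintype.card_prod, Fintype.card_fin, Fintype.card_bool]
  push_cast
  set s := s6 n
  rw [← hs6]
  have hk' : (1:ℝ) ≤ k := by exact_mod_cast (by omega : 1 ≤ k)
  calc _ = k * 1 * (A * (1 + A) * s ^ 5) ^ 2 := by field_simp
    _ ≤ k * k * (A * (1 + A) * s ^ 5) ^ 2 := by gcongr
    _ = _ := by ring

theorem data (k : ℕ) (hk : 3 ≤ k) : ∃ A : ℕ, Data (P k)
    (fun n => T (cl k (litc (ι := Fin n))) (A * n) Set.univ) A (k * A * (1 + A)) := by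
  obtain ⟨A, hA1, hA⟩ : ∃ A : ℕ, 1 ≤ A ∧ (1 - (1 / 2 : ℝ) ^ k) ^ A ≤ 1 / 4 := by
    have h0 : (0:ℝ) < (1 / 2) ^ k := by positivity
    have h1 : (1 / 2 : ℝ) ^ k ≤ 1 := pow_le_one₀ (by norm_num) (by norm_num)
    have := (tendsto_pow_atTop_nhds_zero_of_lt_one (r := 1 - (1 / 2 : ℝ) ^ k) (by linarith)
      (by linarith)).eventually (ge_mem_nhds (show (0:ℝ) < 1 / 4 by norm_num))
    exact ((eventually_ge_atTop 1).and this).exists
  have hA' : (1:ℝ) ≤ A := by exact_mod_cast hA1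
  have hk' : (1:ℝ) ≤ k := by exact_mod_cast (by omega : 1 ≤ k)
  refine ⟨A, hA', ?_, fun n m => u_nonneg _ _ _, ?_, ?_, ?_, ?_, ?_, ?_, ?_, ?_⟩
  · calc (1:ℝ) = 1 * 1 * 1 := by ring
      _ ≤ _ := by gcongr; linarith
  · intro n m
    unfold P
    rw [u_eq_expect]
    rcases isEmpty_or_nonempty (Fin m → Fin k → Fin n × Bool) with h | h
    · simp
    · calc _ ≤ 𝔼 _F : Fin m → Fin k → Fin n × Bool, (1:ℝ) := expect_le_expect fun _ _ => chi_le_one _
        _ = 1 := Fintype.expect_const _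
  · intro n
    rw [T_eq_sum]; exact sum_nonneg fun _ _ => u_nonneg _ _ _
  · intro n
    rcases Nat.eq_zero_or_pos n with rfl | hn
    · simp [T]
    · have : Nonempty (Fin n) := ⟨⟨0, hn⟩⟩
      simpa using T_le (cl k (litc (ι := Fin n))) (A * n) Set.univ
  · intro n hn m y hy hm
    have : Nonempty (Fin n) := ⟨⟨0, hn⟩⟩
    have h1 := lower_tail (cl k (litc (ι := Fin n))) m (A * n) Set.univ _ (le_trans (by linarith) hm)
    have h2 := Q_le (cl k (litc (ι := Fin n))) (A * n) Set.univ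
      (T (cl k (litc (ι := Fin n))) (A * n) Set.univ)
    have h3 := W_fin k hk A n hn
    rw [le_div_iff₀ (by positivity)]
    have h4 : 0 ≤ 1 - P k n m := sub_nonneg.2 (u_le_one _ _ _)
    calc (1 - P k n m) * y ^ 2 ≤ (1 - P k n m) *
        (T (cl k (litc (ι := Fin n))) (A * n) Set.univ - m) ^ 2 := by gcongr; linarith
      _ ≤ _ := by unfold P; simp only [sub_self] at h2; linarith
  · intro n hn m y hy hm
    have : Nonempty (Fin n) := ⟨⟨0, hn⟩⟩
    by_cases hmA : m < A * n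
    · have h1 := upper_tail (cl k (litc (ι := Fin n))) m (A * n) hmA Set.univ
        (T (cl k (litc (ι := Fin n))) (A * n) Set.univ) (by linarith)
      have h2 := Q_le (cl k (litc (ι := Fin n))) (A * n) Set.univ
        (T (cl k (litc (ι := Fin n))) (A * n) Set.univ)
      have h3 := W_fin k hk A n hn
      have h4 : 0 ≤ P k n m := u_nonneg _ _ _
      have h5 : P k n m ≤ (k * A * (1 + A) * s6 n ^ 5) ^ 2 / y ^ 2 := by
        rw [le_div_iff₀ (by positivity)]
        calc P k n m * y ^ 2 ≤ P k n m *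
            (m + 1 - T (cl k (litc (ι := Fin n))) (A * n) Set.univ) ^ 2 := by gcongr; linarith
          _ ≤ _ := by unfold P; simp only [sub_self] at h2; linarith
      have h6 : (0:ℝ) ≤ (1 / 2) ^ n := by positivity
      linarith
    · have h1 : P k n m ≤ P k n (A * n) := u_anti _ _ (not_lt.1 hmA)
      have h2 := first_moment (ι := Fin n) k (A * n)
      rw [Fintype.card_fin, pow_mul, ← mul_pow] at h2
      have h0 : (1 / 2 : ℝ) ^ k ≤ 1 := pow_le_one₀ (by norm_num) (by norm_num)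
      have h0' : (0:ℝ) ≤ (1 - (1 / 2 : ℝ) ^ k) ^ A := pow_nonneg (by linarith) _
      have h3 : (2 * (1 - (1 / 2 : ℝ) ^ k) ^ A) ^ n ≤ (1 / 2) ^ n :=
        pow_le_pow_left₀ (by linarith) (by linarith) n
      have h4 : 0 ≤ (k * A * (1 + A) * s6 n ^ 5) ^ 2 / y ^ 2 := by positivity
      unfold P at h1 ⊢
      linarith
  · intro N₁ N₂ h₁ h₂ m a b y hy ha hb
    exact P_split k N₁ N₂ h₁ h₂ m a b hy ha hb
  · intro n hn m
    exact P_succ k n hn m
  · intro n hn m hm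
    exact P_ge_half k n m (by omega) hn hm

theorem iid_threshold (k : ℕ) (hk : 3 ≤ k) : ∃ α : ℝ, 0 < α ∧
    (∀ c : ℝ, 0 ≤ c → c < α → Tendsto (fun n : ℕ => P k n ⌊c * n⌋₊) atTop (𝓝 1)) ∧
    (∀ c : ℝ, α < c → Tendsto (fun n : ℕ => P k n ⌊c * n⌋₊) atTop (𝓝 0)) := by
  obtain ⟨A, h⟩ := data k hk
  exact h.threshold

end Vale.Agent.P170
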