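import Vale.Agent.P170.Lits

open Finset
open scoped BigOperators

set_option linter.unusedSectionVars false

namespace Vale.Agent.P170

section general
variable {X : Type*} {Γ : Type*} [Fintype Γ] [Nonempty Γ]

lemma u_singleton (φ : Γ → Set X) (x : X) (m : ℕ) : u φ m {x} = (Av φ chi {x}) ^ m := by
  induction m with
  | zero => simp [u_zero, chi_of_nonempty]
  | succ m ih =>
    rw [u_succ, pow_succ, ← ih]
    unfold Av
    rw [mul_expect]
    refine expect_congr rfl fun c _ => ?_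
    by_cases h : x ∈ φ c
    · rw [Set.inter_eq_left.2 (Set.singleton_subset_iff.2 h), chi_of_nonempty (Set.singleton_nonempty x),
        mul_one]
    · rw [Set.singleton_inter_eq_empty.2 h, u_empty, chi_empty, mul_zero]

lemma u_le_sum [Fintype X] (φ : Γ → Set X) (m : ℕ) (S : Set X) :
    u φ m S ≤ ∑ x, u φ m (S ∩ {x}) := by
  induction m generalizing S with
  | zero =>
    simp only [u_zero]
    by_cases hS : S.Nonempty
    · obtain ⟨x, hx⟩ := hS
      calc chi S ≤ 1 := chi_le_one _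
        _ = chi (S ∩ {x}) := (chi_of_nonempty (show (S ∩ {x}).Nonempty from ⟨x, hx, rfl⟩)).symm
        _ ≤ _ := single_le_sum (f := fun x => chi (S ∩ {x})) (fun _ _ => chi_nonneg _) (mem_univ x)
    · rw [Set.not_nonempty_iff_eq_empty.1 hS, chi_empty]
      exact sum_nonneg fun _ _ => chi_nonneg _
  | succ m ih =>
    simp only [u_succ]
    unfold Av
    rw [← expect_sum_comm]
    refine expect_le_expect fun c _ => (ih _).trans (le_of_eq ?_)
    refine sum_congr rfl fun x _ => ?_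
    rw [Set.inter_right_comm]

/-- mixture of two averaging operators -/
noncomputable def Mix {Γ₁ Γ₂ : Type*} [Fintype Γ₁] [Fintype Γ₂] (p : ℝ) (φ₁ : Γ₁ → Set X)
    (φ₂ : Γ₂ → Set X) (f : Set X → ℝ) (S : Set X) : ℝ := p * Av φ₁ f S + (1 - p) * Av φ₂ f S

variable {Γ₁ Γ₂ : Type*} [Fintype Γ₁] [Fintype Γ₂] [Nonempty Γ₁] [Nonempty Γ₂]

lemma Mix_mono {p : ℝ} (hp : 0 ≤ p) (hp1 : p ≤ 1) (φ₁ : Γ₁ → Set X) (φ₂ : Γ₂ → Set X) :
    Monotone (Mix p φ₁ φ₂) := by
  intro f g h S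
  unfold Mix
  have h1 := Av_mono φ₁ h S
  have h2 := Av_mono φ₂ h S
  have h3 : 0 ≤ 1 - p := by linarith
  exact add_le_add (mul_le_mul_of_nonneg_left h1 hp) (mul_le_mul_of_nonneg_left h2 h3)

lemma Av_Mix_comm (p : ℝ) (φ : Γ → Set X) (φ₁ : Γ₁ → Set X) (φ₂ : Γ₂ → Set X) (f : Set X → ℝ) :
    Av φ (Mix p φ₁ φ₂ f) = Mix p φ₁ φ₂ (Av φ f) := by
  funext S
  unfold Mix
  rw [Av_add, Av_mul, Av_mul, ← Av_comm φ φ₁, ← Av_comm φ φ₂]

lemma Mix_iter_nonneg {p : ℝ} (hp : 0 ≤ p) (hp1 : p ≤ 1) (φ₁ : Γ₁ → Set X) (φ₂ : Γ₂ → Set X)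
    (m : ℕ) (S : Set X) : 0 ≤ (Mix p φ₁ φ₂)^[m] chi S := by
  induction m generalizing S with
  | zero => exact chi_nonneg _
  | succ m ih =>
    rw [Function.iterate_succ_apply']
    unfold Mix
    have h3 : 0 ≤ 1 - p := by linarith
    exact add_nonneg (mul_nonneg hp (Av_nonneg _ ih _)) (mul_nonneg h3 (Av_nonneg _ ih _))

lemma Mix_iter_ge {p : ℝ} (hp : 0 ≤ p) (hp1 : p ≤ 1) (φ₁ : Γ₁ → Set X) (φ₂ : Γ₂ → Set X)
    (m : ℕ) (S : Set X) : p ^ m * u φ₁ m S ≤ (Mix p φ₁ φ₂)^[m] chi S := by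
  induction m generalizing S with
  | zero => simp [u_zero]
  | succ m ih =>
    rw [Function.iterate_succ_apply', u_succ]
    have h1 : p ^ m * Av φ₁ (u φ₁ m) S ≤ Av φ₁ ((Mix p φ₁ φ₂)^[m] chi) S := by
      rw [← Av_mul]; exact Av_mono φ₁ (fun S => ih S) S
    have h2 := Av_nonneg φ₂ (Mix_iter_nonneg hp hp1 φ₁ φ₂ m) S
    have h3 : 0 ≤ 1 - p := by linarith
    have h4 := mul_le_mul_of_nonneg_left h1 hp
    have h5 := mul_nonneg h3 h2
    show _ ≤ p * _ + (1 - p) * _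
    rw [pow_succ]
    nlinarith

lemma one_sub_Av (φ : Γ → Set X) (f : Set X → ℝ) (S : Set X) :
    1 - Av φ f S = 𝔼 c, (1 - f (S ∩ φ c)) := by
  rw [expect_sub_distrib, Fintype.expect_const]; rfl

lemma Mix_iter_split {X₁ X₂ : Type*} (ρ₁ : X → X₁) (ρ₂ : X → X₂)
    (hs : ∀ x₁ x₂, ∃ x, ρ₁ x = x₁ ∧ ρ₂ x = x₂) {p : ℝ} (hp : 0 ≤ p) (hp1 : p ≤ 1)
    (φ₁ : Γ₁ → Set X₁) (φ₂ : Γ₂ → Set X₂) {y : ℝ} (hy : 0 < y) (m : ℕ) :
    ∀ (a b : ℕ) (c : ℝ) (S₁ : Set X₁) (S₂ : Set X₂), y ≤ a + 1 - c → y ≤ c - m + b + 1 →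
      1 - (Mix p (fun c => ρ₁ ⁻¹' φ₁ c) (fun c => ρ₂ ⁻¹' φ₂ c))^[m] chi (ρ₁ ⁻¹' S₁ ∩ ρ₂ ⁻¹' S₂) ≤
        (1 - u φ₁ a S₁) + (1 - u φ₂ b S₂) + (m * p * (1 - p) + (m * p - c) ^ 2) / y ^ 2 := by
  have hq : 0 ≤ 1 - p := by linarith
  induction m with
  | zero =>
    intro a b c S₁ S₂ _ _
    have h0 : 0 ≤ (((0:ℕ):ℝ) * p * (1 - p) + (((0:ℕ):ℝ) * p - c) ^ 2) / y ^ 2 := by
      push_cast; positivity
    have h1 := u_le_chi φ₁ a S₁
    have h2 := u_le_chi φ₂ b S₂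
    have h3 := chi_le_one S₁
    have h4 := chi_le_one S₂
    have h5 := chi_nonneg (ρ₁ ⁻¹' S₁ ∩ ρ₂ ⁻¹' S₂)
    simp only [Function.iterate_zero, id_eq]
    by_cases hS₁ : S₁.Nonempty
    · by_cases hS₂ : S₂.Nonempty
      · obtain ⟨x₁, hx₁⟩ := hS₁
        obtain ⟨x₂, hx₂⟩ := hS₂
        obtain ⟨x, rfl, rfl⟩ := hs x₁ x₂
        rw [chi_of_nonempty (show (ρ₁ ⁻¹' S₁ ∩ ρ₂ ⁻¹' S₂).Nonempty from ⟨x, hx₁, hx₂⟩)]
        linarith
      · rw [Set.not_nonempty_iff_eq_empty.1 hS₂] at h2 ⊢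
        rw [chi_empty] at h2
        rw [Set.preimage_empty, Set.inter_empty, chi_empty]
        linarith
    · rw [Set.not_nonempty_iff_eq_empty.1 hS₁] at h1 ⊢
      rw [chi_empty] at h1
      rw [Set.preimage_empty, Set.empty_inter, chi_empty]
      linarith
  | succ m ih =>
    intro a b c S₁ S₂ ha hb
    rw [Function.iterate_succ_apply']
    set F := (Mix p (fun c => ρ₁ ⁻¹' φ₁ c) (fun c => ρ₂ ⁻¹' φ₂ c))^[m] chi with hF
    have hF0 : ∀ S, 0 ≤ F S := Mix_iter_nonneg hp hp1 _ _ m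
    have hm0 : (0:ℝ) ≤ m := Nat.cast_nonneg m
    have hmp : 0 ≤ m * p * (1 - p) := by positivity
    have hua := u_le_one φ₁ a S₁
    have hub := u_le_one φ₂ b S₂
    have h1 : 1 - Av (fun c => ρ₁ ⁻¹' φ₁ c) F (ρ₁ ⁻¹' S₁ ∩ ρ₂ ⁻¹' S₂) ≤
        (1 - u φ₁ a S₁) + (1 - u φ₂ b S₂) + (m * p * (1 - p) + (m * p - (c - 1)) ^ 2) / y ^ 2 := by
      cases a with
      | zero =>
        have h2 := Av_nonneg (fun c => ρ₁ ⁻¹' φ₁ c) hF0 (ρ₁ ⁻¹' S₁ ∩ ρ₂ ⁻¹' S₂)
        have h3 : 1 ≤ (m * p * (1 - p) + (m * p - (c - 1)) ^ 2) / y ^ 2 := by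
          rw [le_div_iff₀ (by positivity)]
          have : y ≤ m * p - (c - 1) := by
            push_cast at ha; nlinarith [mul_nonneg hm0 hp]
          nlinarith
        linarith
      | succ a =>
        rw [one_sub_Av, u_succ, one_sub_Av]
        calc _ ≤ 𝔼 c', ((1 - u φ₁ a (S₁ ∩ φ₁ c')) + ((1 - u φ₂ b S₂) +
              (m * p * (1 - p) + (m * p - (c - 1)) ^ 2) / y ^ 2)) := by
              refine expect_le_expect fun c' _ => ?_
              have := ih a b (c - 1) (S₁ ∩ φ₁ c') S₂ (by push_cast at ha; linarith)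
                (by push_cast at hb; linarith)
              rw [Set.preimage_inter, Set.inter_right_comm] at this
              linarith
          _ = _ := by rw [expect_add_distrib, Fintype.expect_const]; ring
    have h2 : 1 - Av (fun c => ρ₂ ⁻¹' φ₂ c) F (ρ₁ ⁻¹' S₁ ∩ ρ₂ ⁻¹' S₂) ≤
        (1 - u φ₁ a S₁) + (1 - u φ₂ b S₂) + (m * p * (1 - p) + (m * p - c) ^ 2) / y ^ 2 := by
      cases b with
      | zero =>
        have h2 := Av_nonneg (fun c => ρ₂ ⁻¹' φ₂ c) hF0 (ρ₁ ⁻¹' S₁ ∩ ρ₂ ⁻¹' S₂)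
        have h3 : 1 ≤ (m * p * (1 - p) + (m * p - c) ^ 2) / y ^ 2 := by
          rw [le_div_iff₀ (by positivity)]
          have : y ≤ c - m * p := by
            push_cast at hb; nlinarith [mul_nonneg hm0 hq]
          nlinarith
        linarith
      | succ b =>
        rw [one_sub_Av, u_succ, one_sub_Av φ₂]
        calc _ ≤ 𝔼 c', ((1 - u φ₂ b (S₂ ∩ φ₂ c')) + ((1 - u φ₁ a S₁) +
              (m * p * (1 - p) + (m * p - c) ^ 2) / y ^ 2)) := by
              refine expect_le_expect fun c' _ => ?_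
              have := ih a b c S₁ (S₂ ∩ φ₂ c') ha (by push_cast at hb; linarith)
              rw [Set.preimage_inter, ← Set.inter_assoc] at this
              linarith
          _ = _ := by rw [expect_add_distrib, Fintype.expect_const]; ring
    have h3 : (((m+1:ℕ):ℝ) * p * (1 - p) + (((m+1:ℕ):ℝ) * p - c) ^ 2) / y ^ 2 =
        p * ((m * p * (1 - p) + (m * p - (c - 1)) ^ 2) / y ^ 2) +
        (1 - p) * ((m * p * (1 - p) + (m * p - c) ^ 2) / y ^ 2) := by
      push_cast; ring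
    rw [h3]
    have h4 := mul_le_mul_of_nonneg_left h1 hp
    have h5 := mul_le_mul_of_nonneg_left h2 hq
    show 1 - (p * _ + (1 - p) * _) ≤ _
    linarith

end general

section cube
variable {ι : Type*} [Fintype ι] [DecidableEq ι] [Nonempty ι]

lemma bb_singleton (x : ι → Bool) : bb litc {x} = 1 / 2 := by
  unfold bb
  rw [← univ_product_univ, expect_product]
  calc _ = 𝔼 _v : ι, (1 / 2 : ℝ) := by
        refine expect_congr rfl fun v _ => ?_
        rw [expect_eq_sum_div_card, Fintype.sum_bool]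
        have h1 : chi ({x} ∩ litc (v, x v)) = 1 :=
          chi_of_nonempty ⟨x, rfl, rfl⟩
        have h2 : chi ({x} ∩ litc (v, !x v)) = 0 := by
          rw [Set.singleton_inter_eq_empty.2, chi_empty]
          simp [litc]
        cases h : x v <;> simp only [h, Bool.not_true, Bool.not_false] at h1 h2 <;>
          rw [h1, h2] <;> simp
    _ = _ := Fintype.expect_const _

lemma first_moment (k m : ℕ) :
    u (cl k (litc (ι := ι))) m Set.univ ≤ 2 ^ Fintype.card ι * (1 - (1 / 2) ^ k) ^ m := by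
  refine (u_le_sum _ _ _).trans (le_of_eq ?_)
  simp only [Set.univ_inter, u_singleton, Av_cl_chi, bb_singleton]
  simp

variable {ι₁ ι₂ : Type*} [Fintype ι₁] [DecidableEq ι₁] [Nonempty ι₁]
  [Fintype ι₂] [DecidableEq ι₂] [Nonempty ι₂]

lemma bb_split (e : ι₁ ⊕ ι₂ ≃ ι) (S : Set (ι → Bool)) :
    bb litc S = (Fintype.card ι₁ / Fintype.card ι : ℝ) *
        bb (fun l : ι₁ × Bool => litc (e (Sum.inl l.1), l.2)) S +
      (1 - (Fintype.card ι₁ / Fintype.card ι : ℝ)) *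
        bb (fun l : ι₂ × Bool => litc (e (Sum.inr l.1), l.2)) S := by
  have hc : (Fintype.card ι : ℝ) = Fintype.card ι₁ + Fintype.card ι₂ := by
    rw [← Fintype.card_congr e, Fintype.card_sum]; push_cast; rfl
  have h1 : (0:ℝ) < Fintype.card ι₁ := by exact_mod_cast Fintype.card_pos
  have h2 : (0:ℝ) < Fintype.card ι₂ := by exact_mod_cast Fintype.card_pos
  unfold bb
  simp only [expect_eq_sum_div_card, card_univ, Fintype.card_prod, Fintype.card_bool,
    Fintype.sum_prod_type]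
  rw [← Equiv.sum_comp e, Fintype.sum_sum_type]
  push_cast
  rw [hc]
  field_simp
  ring

lemma interp (k : ℕ) (e : ι₁ ⊕ ι₂ ≃ ι) (m : ℕ) :
    (Mix (Fintype.card ι₁ / Fintype.card ι : ℝ)
      (fun c => (fun (x : ι → Bool) (i : ι₁) => x (e (Sum.inl i))) ⁻¹' cl k litc c)
      (fun c => (fun (x : ι → Bool) (i : ι₂) => x (e (Sum.inr i))) ⁻¹' cl k litc c))^[m] chi ≤
      u (cl k (litc (ι := ι))) m := by
  have hc : (Fintype.card ι : ℝ) = Fintype.card ι₁ + Fintype.card ι₂ := by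
    rw [← Fintype.card_congr e, Fintype.card_sum]; push_cast; rfl
  have h1 : (0:ℝ) < Fintype.card ι₁ := by exact_mod_cast Fintype.card_pos
  have h2 : (0:ℝ) < Fintype.card ι₂ := by exact_mod_cast Fintype.card_pos
  set p : ℝ := Fintype.card ι₁ / Fintype.card ι with hp
  have hp0 : 0 ≤ p := by positivity
  have hp1 : p ≤ 1 := by rw [hp, div_le_one (by linarith)]; linarith
  refine iter_ge _ _ (Av_mono _) (Mix_mono hp0 hp1 _ _) (Av_Mix_comm _ _ _ _) _ ?_ m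
  intro S
  have e1 : (fun c => (fun (x : ι → Bool) (i : ι₁) => x (e (Sum.inl i))) ⁻¹' cl k litc c) =
      cl k (fun l : ι₁ × Bool => litc (e (Sum.inl l.1), l.2)) := by
    funext c; ext x; simp [cl, litc]
  have e2 : (fun c => (fun (x : ι → Bool) (i : ι₂) => x (e (Sum.inr i))) ⁻¹' cl k litc c) =
      cl k (fun l : ι₂ × Bool => litc (e (Sum.inr l.1), l.2)) := by
    funext c; ext x; simp [cl, litc]
  rw [e1, e2]
  unfold Mix
  simp only [Av_cl_chi]
  rw [bb_split e S, ← hp]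
  have := (convexOn_pow (𝕜 := ℝ) k).2 (Set.mem_Ici.2 (bb_nonneg
      (fun l : ι₁ × Bool => litc (e (Sum.inl l.1), l.2)) S))
    (Set.mem_Ici.2 (bb_nonneg (fun l : ι₂ × Bool => litc (e (Sum.inr l.1), l.2)) S)) hp0
    (show 0 ≤ 1 - p by linarith) (by ring)
  simp only [smul_eq_mul] at this
  linarith

end cube

/-- satisfiability probability, clauses with independent uniform literals -/
noncomputable def P (k n m : ℕ) : ℝ := u (cl k (litc (ι := Fin n))) m Set.univ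

lemma P_split (k N₁ N₂ : ℕ) (h₁ : 0 < N₁) (h₂ : 0 < N₂) (m a b : ℕ) {y : ℝ} (hy : 0 < y)
    (ha : y ≤ a + 1 - m * (N₁ / (N₁ + N₂) : ℝ)) (hb : y ≤ m * (N₁ / (N₁ + N₂) : ℝ) - m + b + 1) :
    1 - P k (N₁ + N₂) m ≤ (1 - P k N₁ a) + (1 - P k N₂ b) + m / y ^ 2 := by
  have : Nonempty (Fin N₁) := ⟨⟨0, h₁⟩⟩
  have : Nonempty (Fin N₂) := ⟨⟨0, h₂⟩⟩
  have : Nonempty (Fin (N₁ + N₂)) := ⟨⟨0, by omega⟩⟩
  have h1 := interp k (finSumFinEquiv (m := N₁) (n := N₂)) m Set.univ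
  simp only [Fintype.card_fin] at h1
  push_cast at h1
  have hN₁ : (0:ℝ) < N₁ := by exact_mod_cast h₁
  have hN₂ : (0:ℝ) < N₂ := by exact_mod_cast h₂
  set p : ℝ := N₁ / (N₁ + N₂) with hp
  have hp0 : 0 ≤ p := by positivity
  have hp1 : p ≤ 1 := by rw [hp, div_le_one (by linarith)]; linarith
  have h2 := Mix_iter_split
    (fun (x : Fin (N₁ + N₂) → Bool) (i : Fin N₁) => x (finSumFinEquiv (Sum.inl i)))
    (fun (x : Fin (N₁ + N₂) → Bool) (i : Fin N₂) => x (finSumFinEquiv (Sum.inr i)))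
    (fun x₁ x₂ => ⟨fun i => Sum.elim x₁ x₂ (finSumFinEquiv.symm i), by funext i; simp,
      by funext i; simp⟩) hp0 hp1 (cl k litc) (cl k litc) hy m a b (m * p) Set.univ Set.univ ha hb
  simp only [Set.preimage_univ, Set.inter_self, sub_self] at h2
  have h3 : (m * p * (1 - p) + 0 ^ 2) / y ^ 2 ≤ m / y ^ 2 := by
    refine div_le_div_of_nonneg_right ?_ (by positivity)
    have hm0 : (0:ℝ) ≤ m := Nat.cast_nonneg m
    have : p * (1 - p) ≤ 1 := by nlinarith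
    nlinarith
  unfold P
  linarith

lemma P_succ (k n : ℕ) (hn : 0 < n) (m : ℕ) : (n / (n + 1) : ℝ) ^ m * P k n m ≤ P k (n + 1) m := by
  have : Nonempty (Fin n) := ⟨⟨0, hn⟩⟩
  have h1 := interp k (finSumFinEquiv (m := n) (n := 1)) m Set.univ
  simp only [Fintype.card_fin] at h1
  push_cast at h1
  have hN₁ : (0:ℝ) < n := by exact_mod_cast hn
  refine le_trans ?_ h1
  refine le_trans (le_of_eq ?_) (Mix_iter_ge (by positivity)
    (by rw [div_le_one (by linarith)]; linarith) _ _ m Set.univ)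
  rw [u_transport, Set.image_univ, Function.Surjective.range_eq]
  · rfl
  · intro x
    exact ⟨fun i => Sum.elim x (fun _ => true) (finSumFinEquiv.symm i), by funext i; simp⟩

end Vale.Agent.P170
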