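import Vale.Agent.P170.Basic

open Finset
open scoped BigOperators

set_option linter.unusedSectionVars false

namespace Vale.Agent.P170

variable {X : Type*} {Λ : Type*} [Fintype Λ] [Nonempty Λ]

def cl (k : ℕ) (lit : Λ → Set X) (C : Fin k → Λ) : Set X := ⋃ j, lit (C j)

noncomputable def bb (lit : Λ → Set X) (S : Set X) : ℝ := 𝔼 l, (1 - chi (S ∩ lit l))

lemma expect_pi_prod (k : ℕ) (g : Fin k → Λ → ℝ) :
    𝔼 C : Fin k → Λ, ∏ j, g j (C j) = ∏ j, 𝔼 l, g j l := by
  classical
  simp only [expect_eq_sum_div_card, card_univ]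
  rw [prod_div_distrib, prod_univ_sum, Fintype.piFinset_univ]
  simp

lemma one_sub_chi_cl (k : ℕ) (lit : Λ → Set X) (S : Set X) (C : Fin k → Λ) :
    1 - chi (S ∩ cl k lit C) = ∏ j, (1 - chi (S ∩ lit (C j))) := by
  by_cases h : (S ∩ cl k lit C).Nonempty
  · rw [chi_of_nonempty h]
    obtain ⟨x, hx, hx'⟩ := h
    obtain ⟨j, hj⟩ := Set.mem_iUnion.1 hx'
    rw [prod_eq_zero (mem_univ j)]
    · ring
    · rw [chi_of_nonempty (show (S ∩ lit (C j)).Nonempty from ⟨x, hx, hj⟩)]; ring
  · rw [Set.not_nonempty_iff_eq_empty.1 h, chi_empty, prod_eq_one]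
    · ring
    · intro j _
      have : S ∩ lit (C j) = ∅ := by
        by_contra h'
        obtain ⟨x, hx, hx'⟩ := Set.nonempty_iff_ne_empty.2 h'
        exact h ⟨x, hx, Set.mem_iUnion.2 ⟨j, hx'⟩⟩
      rw [this, chi_empty]; ring

lemma Av_cl_chi (k : ℕ) (lit : Λ → Set X) (S : Set X) :
    Av (cl k lit) chi S = 1 - bb lit S ^ k := by
  have : 𝔼 C : Fin k → Λ, (1 - chi (S ∩ cl k lit C)) = bb lit S ^ k := by
    simp only [one_sub_chi_cl]
    rw [expect_pi_prod k (fun _ l => 1 - chi (S ∩ lit l))]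
    simp [bb]
  rw [expect_sub_distrib, Fintype.expect_const] at this
  unfold Av
  linarith

lemma bb_nonneg (lit : Λ → Set X) (S : Set X) : 0 ≤ bb lit S :=
  expect_nonneg fun _ _ => sub_nonneg.2 (chi_le_one _)

lemma bb_le_one (lit : Λ → Set X) (S : Set X) : bb lit S ≤ 1 := by
  calc bb lit S ≤ 𝔼 _l : Λ, (1:ℝ) := expect_le_expect fun l _ => by linarith [chi_nonneg (S ∩ lit l)]
    _ = 1 := Fintype.expect_const _

lemma bb_empty (lit : Λ → Set X) : bb lit ∅ = 1 := by simp [bb, chi_empty]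

lemma hz_cl (k : ℕ) (lit : Λ → Set X) {S : Set X} (hS : S.Nonempty) :
    hz (cl k lit) S = bb lit S ^ k := by
  unfold hz; rw [Av_cl_chi, chi_of_nonempty hS]; ring

noncomputable def beta (lit : Λ → Set X) (S : Set X) : ℝ := 𝔼 l, (chi S - chi (S ∩ lit l))

lemma beta_nonneg (lit : Λ → Set X) (S : Set X) : 0 ≤ beta lit S :=
  expect_nonneg fun _ _ => sub_nonneg.2 (chi_mono Set.inter_subset_left)

lemma beta_eq (lit : Λ → Set X) {S : Set X} (hS : S.Nonempty) : beta lit S = bb lit S := by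
  unfold beta bb; rw [chi_of_nonempty hS]

lemma pow_split {b θ : ℝ} (hb : 0 ≤ b) (hθ : 0 < θ) (hθ1 : θ ≤ 1) {k : ℕ} (hk : 3 ≤ k) :
    b ^ (k - 1) ≤ b ^ k / θ + θ ^ 2 := by
  obtain ⟨j, rfl⟩ : ∃ j, k = j + 3 := ⟨k - 3, by omega⟩
  have e : j + 3 - 1 = j + 2 := by omega
  rw [e]
  by_cases h : θ ≤ b
  · have : b ^ (j+2) ≤ b ^ (j+3) / θ := by
      rw [le_div_iff₀ hθ, pow_succ b (j+2)]
      exact mul_le_mul_of_nonneg_left h (by positivity)
    nlinarith [sq_nonneg θ]
  · push Not at h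
    have h1 : b ^ (j+2) ≤ θ ^ (j+2) := pow_le_pow_left₀ hb h.le _
    have h2 : θ ^ (j+2) ≤ θ ^ 2 := pow_le_pow_of_le_one hθ.le hθ1 (by omega)
    have h3 : 0 ≤ b ^ (j+3) / θ := by positivity
    linarith

lemma hzT_le (k : ℕ) (hk : 3 ≤ k) (lit : Λ → Set X) {θ : ℝ} (hθ : 0 < θ) (hθ1 : θ ≤ 1) (M : ℕ) :
    ∀ L ≤ M, ∀ S, hz (cl k lit) S * T (cl k lit) L S ≤ (1 / θ + θ ^ 2 * M) * beta lit S := by
  intro L hL S
  by_cases hS : S.Nonempty
  · have h1 := hz_mul_T (cl k lit) S L S le_rfl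
    rw [chi_of_nonempty hS] at h1
    rw [beta_eq lit hS]
    have hb := bb_nonneg lit S
    have hT0 := T_nonneg (cl k lit) L S
    have hT : T (cl k lit) L S ≤ M := (T_le _ _ _).trans (by exact_mod_cast hL)
    have hM : (0:ℝ) ≤ M := Nat.cast_nonneg M
    by_cases h : θ ≤ bb lit S
    · have : 1 ≤ 1 / θ * bb lit S := by
        rw [div_mul_eq_mul_div, le_div_iff₀ hθ]; linarith
      have h2 : 0 ≤ θ ^ 2 * M * bb lit S := by positivity
      nlinarith
    · push Not at h
      rw [hz_cl k lit hS]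
      obtain ⟨j, rfl⟩ : ∃ j, k = j + 3 := ⟨k - 3, by omega⟩
      have h2 : bb lit S ^ (j+2) ≤ θ ^ 2 :=
        (pow_le_pow_left₀ hb h.le _).trans (pow_le_pow_of_le_one hθ.le hθ1 (by omega))
      have h3 : bb lit S ^ (j+3) * T (cl (j+3) lit) L S ≤ (θ ^ 2 * bb lit S) * M := by
        refine mul_le_mul ?_ hT hT0 (by positivity)
        rw [pow_succ _ (j+2)]
        exact mul_le_mul_of_nonneg_right h2 hb
      have h4 : 0 ≤ 1 / θ * bb lit S := by positivity
      nlinarith
  · rw [Set.not_nonempty_iff_eq_empty.1 hS, T_empty, mul_zero]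
    exact mul_nonneg (by positivity) (beta_nonneg _ _)

lemma B_beta {Γ : Type*} [Fintype Γ] [Nonempty Γ] (φ : Γ → Set X) (lit : Λ → Set X) (L : ℕ)
    (S : Set X) : B φ (beta lit) L S = 𝔼 l, (T φ L S - T φ L (S ∩ lit l)) := by
  induction L generalizing S with
  | zero => simp [B, T]
  | succ L ih =>
    simp only [delta_succ, B]
    rw [expect_add_distrib, expect_comm]
    unfold Av
    simp only [ih]
    rfl

/-! ### The Boolean cube -/

def litc {ι : Type*} (l : ι × Bool) : Set (ι → Bool) := {x | x l.1 = l.2}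

def litd {ι : Type*} [DecidableEq ι] (v : ι) (l : ι × Bool) : Set (ι → Bool) :=
  if l.1 = v then Set.univ else litc l

variable {ι : Type*} [Fintype ι] [DecidableEq ι] [Nonempty ι]

lemma cl_litd_of_mem {k : ℕ} (v : ι) (C : Fin k → ι × Bool) (h : ∃ j, (C j).1 = v) :
    cl k (litd v) C = Set.univ := by
  obtain ⟨j, hj⟩ := h
  refine Set.eq_univ_of_forall fun x => Set.mem_iUnion.2 ⟨j, ?_⟩
  simp [litd, hj]

lemma cl_litd_of_not_mem {k : ℕ} (v : ι) (C : Fin k → ι × Bool) (h : ¬ ∃ j, (C j).1 = v) :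
    cl k (litd v) C = cl k litc C := by
  push Not at h
  unfold cl
  refine Set.iUnion_congr fun j => ?_
  simp [litd, h j]

lemma T_proj (k : ℕ) (v : ι) (e : Bool) (L : ℕ) (S S' : Set (ι → Bool))
    (h : ∀ x ∈ S, Function.update x v e ∈ S') :
    T (cl k litc) L S ≤ T (cl k (litd v)) L S' := by
  induction L generalizing S S' with
  | zero => simp [T]
  | succ L ih =>
    simp only [T]
    refine add_le_add ?_ ?_
    · by_cases hS : S.Nonempty
      · obtain ⟨x, hx⟩ := hS
        rw [chi_of_nonempty ⟨x, hx⟩, chi_of_nonempty ⟨_, h x hx⟩]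
      · rw [Set.not_nonempty_iff_eq_empty.1 hS, chi_empty]; exact chi_nonneg _
    · refine expect_le_expect fun C _ => ih _ _ ?_
      rintro x ⟨hx, hx'⟩
      refine ⟨h x hx, ?_⟩
      obtain ⟨j, hj⟩ := Set.mem_iUnion.1 hx'
      refine Set.mem_iUnion.2 ⟨j, ?_⟩
      by_cases hv : (C j).1 = v
      · simp [litd, hv]
      · simp only [litd, hv, if_false, litc, Set.mem_ofPred_eq] at hj ⊢
        rw [Function.update_of_ne hv]; exact hj

open Classical in
lemma kill_v (k : ℕ) (v : ι) (e : Bool) (S : Set (ι → Bool)) (hS : S ⊆ litc (v, e)) :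
    𝔼 C : Fin k → ι × Bool, (if ∃ j, (C j).1 = v then (1:ℝ) else 0) * (chi S - chi (S ∩ cl k litc C))
      ≤ k / Fintype.card (ι × Bool) * (chi S * bb litc S ^ (k - 1)) := by
  by_cases hne : S.Nonempty
  swap
  · rw [Set.not_nonempty_iff_eq_empty.1 hne]; simp [chi_empty]
  rw [chi_of_nonempty hne, one_mul]
  set g : Fin k → Fin k → ι × Bool → ℝ := fun j j' l =>
    if j' = j then (if l = (v, !e) then 1 else 0) else 1 - chi (S ∩ litc l) with hg
  have h1 : ∀ C : Fin k → ι × Bool,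
      (if ∃ j, (C j).1 = v then (1:ℝ) else 0) * (1 - chi (S ∩ cl k litc C)) ≤
        ∑ j, ∏ j', g j j' (C j') := by
    intro C
    have hnn : ∀ j, 0 ≤ ∏ j', g j j' (C j') := fun j => prod_nonneg fun j' _ => by
      simp only [hg]; split_ifs <;> linarith [chi_le_one (S ∩ litc (C j'))]
    split_ifs with h
    · obtain ⟨j, hj⟩ := h
      rw [one_mul]
      by_cases hk : (S ∩ cl k litc C).Nonempty
      · rw [chi_of_nonempty hk, sub_self]; exact sum_nonneg fun j _ => hnn j
      · have hall : ∀ j', S ∩ litc (C j') = ∅ := by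
          intro j'
          by_contra h'
          obtain ⟨x, hx, hx'⟩ := Set.nonempty_iff_ne_empty.2 h'
          exact hk ⟨x, hx, Set.mem_iUnion.2 ⟨j', hx'⟩⟩
        have hCj : C j = (v, !e) := by
          obtain ⟨x, hx⟩ := hne
          have hx1 : x v = e := hS hx
          have hx2 : x ∉ litc (C j) := fun h => by
            have : x ∈ S ∩ litc (C j) := ⟨hx, h⟩
            rw [hall j] at this; exact this
          simp only [litc, Set.mem_ofPred_eq, hj, hx1] at hx2
          ext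
          · exact hj
          · cases e <;> cases h2 : (C j).2 <;> simp_all
        have h1 : ∏ j', g j j' (C j') = 1 := prod_eq_one fun j' _ => by
          simp only [hg]
          split_ifs with h2 h3
          · rfl
          · exact absurd (h2 ▸ hCj) h3
          · rw [hall j', chi_empty]; ring
        calc 1 - chi (S ∩ cl k litc C) ≤ 1 := by linarith [chi_nonneg (S ∩ cl k litc C)]
          _ = ∏ j', g j j' (C j') := h1.symm
          _ ≤ _ := single_le_sum (fun j _ => hnn j) (mem_univ j)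
    · rw [zero_mul]; exact sum_nonneg fun j _ => hnn j
  have h2 : ∀ j, ∏ j', 𝔼 l, g j j' l = 1 / Fintype.card (ι × Bool) * bb litc S ^ (k - 1) := by
    intro j
    rw [← mul_prod_erase univ _ (mem_univ j)]
    congr 1
    · simp only [hg, if_true]
      rw [expect_eq_sum_div_card]
      simp
    · rw [prod_congr rfl (g := fun _ => bb litc S)]
      · simp
      · intro j' hj'
        simp only [hg, ne_of_mem_erase hj', if_false]; rfl
  calc _ ≤ 𝔼 C : Fin k → ι × Bool, ∑ j, ∏ j', g j j' (C j') := expect_le_expect fun C _ => h1 C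
    _ = ∑ j, ∏ j', 𝔼 l, g j j' l := by
      rw [expect_sum_comm]; exact sum_congr rfl fun j _ => expect_pi_prod k (g j)
    _ = _ := by simp only [h2]; simp; ring

lemma T_del_le (k : ℕ) (hk : 3 ≤ k) (v : ι) (e : Bool) {θ : ℝ} (hθ : 0 < θ) (hθ1 : θ ≤ 1) (M : ℕ) :
    T (cl k (litd v)) M (litc (v, e)) - T (cl k litc) M (litc (v, e)) ≤
      M * (k / Fintype.card (ι × Bool) * (1 / θ + θ ^ 2 * M)) := by
  classical
  refine hybrid (cl k litc) (cl k (litd v)) (litc (v, e)) _ M ?_ M le_rfl _ le_rfl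
  intro L hL S hS
  set a : ℝ := k / Fintype.card (ι × Bool) with ha
  have ha0 : 0 ≤ a := by positivity
  have h1 := psi_le (cl k litc) (fun C => if ∃ j, (C j).1 = v then (1:ℝ) else 0) (litc (v, e))
    (a := a / θ) (a' := a * θ ^ 2) (by positivity) ?_ L S hS
  · have h2 : Av (cl k (litd v)) (T (cl k litc) L) S - Av (cl k litc) (T (cl k litc) L) S =
        𝔼 C : Fin k → ι × Bool, (if ∃ j, (C j).1 = v then (1:ℝ) else 0) *
          (T (cl k litc) L S - T (cl k litc) L (S ∩ cl k litc C)) := by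
      unfold Av
      rw [← expect_sub_distrib]
      refine expect_congr rfl fun C _ => ?_
      split_ifs with h
      · rw [cl_litd_of_mem v C h]; simp
      · rw [cl_litd_of_not_mem v C h]; simp
    rw [h2]
    have h3 : (L:ℝ) ≤ M := by exact_mod_cast hL.le
    have h4 : a / θ * chi S ≤ a / θ := by
      have := chi_le_one S
      have h5 : 0 ≤ a / θ := by positivity
      nlinarith
    have h5 : L * (a * θ ^ 2) ≤ M * (a * θ ^ 2) := mul_le_mul_of_nonneg_right h3 (by positivity)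
    have h6 : a * (1 / θ + θ ^ 2 * M) = a / θ + M * (a * θ ^ 2) := by ring
    linarith
  · intro S hS
    refine (kill_v k v e S hS).trans ?_
    by_cases hne : S.Nonempty
    · rw [chi_of_nonempty hne, hz_cl k litc hne, one_mul]
      have := mul_le_mul_of_nonneg_left (pow_split (bb_nonneg litc S) hθ hθ1 hk) ha0
      calc _ ≤ _ := this
        _ = _ := by ring
    · rw [Set.not_nonempty_iff_eq_empty.1 hne, chi_empty]
      have := hz_nonneg (cl k (litc (ι := ι))) ∅
      have h7 : 0 ≤ a / θ * hz (cl k (litc (ι := ι))) ∅ := by positivity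
      have h8 : 0 ≤ a * θ ^ 2 := by positivity
      simp only [zero_mul, mul_zero]
      linarith

lemma W_cube (k : ℕ) (hk : 3 ≤ k) {θ : ℝ} (hθ : 0 < θ) (hθ1 : θ ≤ 1) (M : ℕ) :
    W (cl k (litc (ι := ι))) M Set.univ ≤
      2 * (1 / θ + θ ^ 2 * M) * M * (M * (k / Fintype.card (ι × Bool) * (1 / θ + θ ^ 2 * M))) := by
  have h1 := W_le (cl k (litc (ι := ι))) (beta_nonneg litc) (lam := 1 / θ + θ ^ 2 * M)
    (by positivity) (hzT_le k hk litc hθ hθ1 M) M le_rfl Set.univ
  refine h1.trans (mul_le_mul_of_nonneg_left ?_ (by positivity))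
  rw [B_beta]
  calc _ ≤ 𝔼 _l : ι × Bool, (M * (k / Fintype.card (ι × Bool) * (1 / θ + θ ^ 2 * M)) : ℝ) := by
        refine expect_le_expect fun l _ => ?_
        obtain ⟨v, e⟩ := l
        have h2 := T_del_le k hk v e hθ hθ1 M
        have h3 := T_proj k v e M Set.univ (litc (v, e)) (fun x _ => by simp [litc])
        rw [Set.univ_inter]
        linarith
    _ = _ := Fintype.expect_const _

end Vale.Agent.P170
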