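import Vale.Agent.P170.Iid
import Vale.Agent.P170.Defs

open Finset Filter Topology
open scoped BigOperators

set_option linter.unusedSectionVars false

namespace Vale.Agent.P170

section
variable {X Γ Γ' : Type*} [Fintype Γ] [Nonempty Γ] [Fintype Γ'] [Nonempty Γ']

lemma transfer_u (φ : Γ → Set X) (φ' : Γ' → Set X) {q : ℝ} (hq : 0 ≤ q)
    (h : ∀ f : Set X → ℝ, (∀ S, 0 ≤ f S) → ∀ S, q * Av φ' f S ≤ Av φ f S) (m : ℕ) (S : Set X) :
    q ^ m * u φ' m S ≤ u φ m S := by
  induction m generalizing S with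
  | zero => simp [u_zero]
  | succ m ih =>
    rw [u_succ, u_succ]
    refine le_trans ?_ (h _ (u_nonneg φ m) S)
    rw [pow_succ', mul_assoc, ← Av_mul]
    exact mul_le_mul_of_nonneg_left (Av_mono φ' (fun S => ih S) S) hq

lemma transfer_one_sub (φ : Γ → Set X) (φ' : Γ' → Set X) {q : ℝ} (hq : 0 ≤ q)
    (h : ∀ f : Set X → ℝ, (∀ S, 0 ≤ f S) → ∀ S, q * Av φ' f S ≤ Av φ f S) (m : ℕ) (S : Set X) :
    q ^ m * (1 - u φ' m S) ≤ 1 - u φ m S := by
  induction m generalizing S with
  | zero => simp [u_zero]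
  | succ m ih =>
    rw [u_succ, u_succ]
    have e1 : 1 - Av φ (u φ m) S = Av φ (fun S => 1 - u φ m S) S := by rw [Av_sub, Av_const]
    have e2 : 1 - Av φ' (u φ' m) S = Av φ' (fun S => 1 - u φ' m S) S := by rw [Av_sub, Av_const]
    rw [e1, e2]
    refine le_trans ?_ (h _ (fun S => sub_nonneg.2 (u_le_one φ m S)) S)
    rw [pow_succ', mul_assoc, ← Av_mul]
    exact mul_le_mul_of_nonneg_left (Av_mono φ' (fun S => ih S) S) hq

end

/-- solutions of a proper clause -/
def pc {n k : ℕ} (C : ProperClause n k) : Set (Fin n → Bool) := {x | ∃ l ∈ C.1, x l.1 = l.2}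

lemma satProb_eq (k n m : ℕ) : satProb k n m = u (pc (n := n) (k := k)) m Set.univ := by
  classical
  rw [u_eq_expect, expect_eq_sum_div_card, satProb, Nat.card_eq_fintype_card,
    Nat.card_eq_fintype_card, Fintype.card_subtype, card_univ, card_filter]
  congr 1
  push_cast
  refine sum_congr rfl fun F _ => ?_
  unfold chi
  congr 1
  simp [Satisfiable, Set.Nonempty, pc]

/-- tuples of literals on distinct variables -/
def DD (n k : ℕ) : Finset (Fin k → Fin n × Bool) :=
  univ.filter fun t => Function.Injective fun j => (t j).1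

lemma fiber_card (n k : ℕ) (C : ProperClause n k) :
    ((DD n k).filter fun t => univ.image t = C.1).card = k.factorial := by
  classical
  have h1 : Fintype.card (Fin k ↪ C.1) = k.factorial := by
    rw [Fintype.card_embedding_eq, Fintype.card_coe, C.2.1, Fintype.card_fin, Nat.descFactorial_self]
  rw [← h1, ← card_univ]
  symm
  refine card_bij (fun e _ => fun j => (e j).1) ?_ ?_ ?_
  · intro e _
    have hinj : Function.Injective fun j => (e j).1 := Subtype.val_injective.comp e.injective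
    refine mem_filter.2 ⟨mem_filter.2 ⟨mem_univ _, ?_⟩, ?_⟩
    · intro a b hab
      exact hinj (C.2.2 (e a).2 (e b).2 hab)
    · refine eq_of_subset_of_card_le ?_ ?_
      · intro l hl
        obtain ⟨j, -, rfl⟩ := mem_image.1 hl
        exact (e j).2
      · rw [card_image_of_injective _ hinj, C.2.1]; simp
  · intro a _ b _ hab
    ext j : 2
    exact congrFun hab j
  · intro t ht
    obtain ⟨ht1, ht2⟩ := mem_filter.1 ht
    have ht3 := (mem_filter.1 ht1).2
    refine ⟨⟨fun j => ⟨t j, ht2 ▸ mem_image_of_mem _ (mem_univ j)⟩, fun a b hab => ht3 ?_⟩,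
      mem_univ _, rfl⟩
    exact congrArg (fun l : C.1 => l.1.1) hab

lemma sum_DD (n k : ℕ) (g : Finset (Fin n × Bool) → ℝ) :
    ∑ t ∈ DD n k, g (univ.image t) = k.factorial * ∑ C : ProperClause n k, g C.1 := by
  classical
  rw [← sum_fiberwise_of_maps_to (s := DD n k)
    (t := univ.filter fun C : Finset (Fin n × Bool) =>
      C.card = k ∧ Set.InjOn Prod.fst (C : Set (Fin n × Bool))) (g := fun t => univ.image t)]
  · rw [sum_subtype (p := fun C : Finset (Fin n × Bool) =>
      C.card = k ∧ Set.InjOn Prod.fst (C : Set (Fin n × Bool))) _ (by simp), mul_sum]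
    refine sum_congr rfl fun C _ => ?_
    rw [sum_congr rfl (g := fun _ => g C.1) fun t ht => by rw [(mem_filter.1 ht).2], sum_const,
      fiber_card, nsmul_eq_mul]
  · intro t ht
    have ht3 := (mem_filter.1 ht).2
    refine mem_filter.2 ⟨mem_univ _, ?_, ?_⟩
    · rw [card_image_of_injective _ (Function.Injective.of_comp (f := Prod.fst) ht3)]; simp
    · intro a ha b hb hab
      obtain ⟨i, -, rfl⟩ := mem_image.1 (mem_coe.1 ha)
      obtain ⟨j, -, rfl⟩ := mem_image.1 (mem_coe.1 hb)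
      rw [ht3 hab]

lemma card_DD (n k : ℕ) : (n - k) ^ k * 2 ^ k ≤ (DD n k).card := by
  classical
  calc (n - k) ^ k * 2 ^ k ≤ n.descFactorial k * 2 ^ k := by
        gcongr
        exact le_trans (Nat.pow_le_pow_left (by omega) k) (Nat.pow_sub_le_descFactorial n k)
    _ = (univ : Finset ((Fin k ↪ Fin n) × (Fin k → Bool))).card := by simp
    _ ≤ _ := by
      refine card_le_card_of_injOn (fun p j => (p.1 j, p.2 j)) ?_ ?_
      · intro p _
        exact mem_filter.2 ⟨mem_univ _, p.1.injective⟩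
      · intro a _ b _ hab
        ext j
        · exact congrArg (fun l : Fin n × Bool => (l.1 : ℕ)) (congrFun hab j)
        · exact congrArg Prod.snd (congrFun hab j)

lemma nonempty_proper {n k : ℕ} (h : k < n) : Nonempty (ProperClause n k) := by
  classical
  have h1 := sum_DD n k fun _ => 1
  have h2 : 0 < (DD n k).card := lt_of_lt_of_le (by have : 0 < n - k := by omega
                                                    positivity) (card_DD n k)
  by_contra hc
  rw [not_nonempty_iff] at hc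
  simp at h1
  simp [h1] at h2

lemma Av_proper {n k : ℕ} (h : k < n) (f : Set (Fin n → Bool) → ℝ) (hf : ∀ S, 0 ≤ f S)
    (S : Set (Fin n → Bool)) :
    (1 - k / n : ℝ) ^ k * Av (pc (n := n) (k := k)) f S ≤ Av (cl k litc) f S := by
  classical
  have := nonempty_proper h
  have h1 := sum_DD n k fun _ => 1
  have h2 := sum_DD n k fun C => f (S ∩ {x | ∃ l ∈ C, x l.1 = l.2})
  have h3 : (((n - k) ^ k * 2 ^ k : ℕ) : ℝ) ≤ (DD n k).card := by exact_mod_cast card_DD n k
  push_cast [Nat.cast_sub h.le] at h3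
  simp only [sum_const, nsmul_eq_mul, mul_one, card_univ] at h1
  have hc : (0:ℝ) < Fintype.card (ProperClause n k) := by exact_mod_cast Fintype.card_pos
  have hn : (0:ℝ) < n := by exact_mod_cast (by omega : 0 < n)
  have h4 : ∑ t ∈ DD n k, f (S ∩ {x | ∃ l ∈ univ.image t, x l.1 = l.2}) ≤
      ∑ t : Fin k → Fin n × Bool, f (S ∩ cl k litc t) := by
    refine le_trans (le_of_eq (sum_congr rfl fun t _ => ?_))
      (sum_le_sum_of_subset_of_nonneg (subset_univ _) fun _ _ _ => hf _)
    congr 2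
    ext x
    simp only [cl, litc, Set.mem_ofPred_eq, Set.mem_iUnion, mem_image, mem_univ, true_and]
    constructor
    · rintro ⟨l, ⟨j, rfl⟩, hl⟩; exact ⟨j, hl⟩
    · rintro ⟨j, hj⟩; exact ⟨_, ⟨j, rfl⟩, hj⟩
  unfold Av
  simp only [expect_eq_sum_div_card, card_univ, Fintype.card_fun, Fintype.card_prod,
    Fintype.card_fin, Fintype.card_bool]
  push_cast
  have h5 : 0 ≤ ∑ C : ProperClause n k, f (S ∩ pc C) := sum_nonneg fun _ _ => hf _
  rw [h2] at h4
  refine le_trans ?_ (div_le_div_of_nonneg_right h4 (by positivity))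
  change _ ≤ k.factorial * (∑ C : ProperClause n k, f (S ∩ pc C)) / _
  have h6 : (1 - k / n : ℝ) ^ k / Fintype.card (ProperClause n k) ≤ k.factorial / (n * 2) ^ k := by
    rw [div_le_div_iff₀ hc (by positivity), ← h1]
    refine le_trans (le_of_eq ?_) h3
    rw [← mul_pow, ← mul_pow]; congr 1; field_simp
  calc _ = (1 - k / n : ℝ) ^ k / Fintype.card (ProperClause n k) *
        ∑ C : ProperClause n k, f (S ∩ pc C) := by ring
    _ ≤ k.factorial / (n * 2) ^ k * ∑ C : ProperClause n k, f (S ∩ pc C) := by gcongr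
    _ = _ := by ring

lemma q_pow_ge {n k : ℕ} (hn : 0 < n) (h : 2 * k ≤ n) {c : ℝ} (hc : 0 ≤ c) :
    Real.exp (-(2 * k * k * c)) ≤ ((1 - k / n : ℝ) ^ k) ^ ⌊c * n⌋₊ := by
  have hn' : (0:ℝ) < n := by exact_mod_cast hn
  have h' : (2:ℝ) * k ≤ n := by exact_mod_cast h
  have e2 := exp_le_one_sub (x := (k / n : ℝ)) (by positivity)
    (by rw [div_le_div_iff₀ hn' (by norm_num)]; linarith)
  rw [← pow_mul]
  refine le_trans ?_ (pow_le_pow_left₀ (Real.exp_pos _).le e2 _)
  rw [← Real.exp_nat_mul, Real.exp_le_exp]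
  have h3 := Nat.floor_le (show 0 ≤ c * n by positivity)
  push_cast
  have h4 : (⌊c * n⌋₊ : ℝ) / n ≤ c := by rw [div_le_iff₀ hn']; exact h3
  calc -(2 * k * k * c) ≤ -(2 * k * k * ((⌊c * n⌋₊ : ℝ) / n)) := by gcongr
    _ = _ := by ring

theorem proper_threshold (k : ℕ) (hk : 3 ≤ k) : ∃ α : ℝ, 0 < α ∧
    (∀ c : ℝ, 0 ≤ c → c < α → Tendsto (fun n : ℕ => satProb k n ⌊c * n⌋₊) atTop (𝓝 1)) ∧
    (∀ c : ℝ, α < c → Tendsto (fun n : ℕ => satProb k n ⌊c * n⌋₊) atTop (𝓝 0)) := by
  obtain ⟨α, hα, h1, h2⟩ := iid_threshold k hk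
  have key : ∀ c : ℝ, 0 ≤ c → ∀ᶠ n : ℕ in atTop,
      0 ≤ satProb k n ⌊c * n⌋₊ ∧ satProb k n ⌊c * n⌋₊ ≤ 1 ∧
      satProb k n ⌊c * n⌋₊ ≤ Real.exp (2 * k * k * c) * P k n ⌊c * n⌋₊ ∧
      1 - Real.exp (2 * k * k * c) * (1 - P k n ⌊c * n⌋₊) ≤ satProb k n ⌊c * n⌋₊ := by
    intro c hc
    filter_upwards [eventually_ge_atTop (2 * k)] with n hn
    have hkn : k < n := by omega
    have := nonempty_proper hkn
    have : Nonempty (Fin n) := ⟨⟨0, by omega⟩⟩
    have hq : (0:ℝ) ≤ (1 - k / n : ℝ) ^ k := by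
      refine pow_nonneg (sub_nonneg.2 ?_) _
      rw [div_le_one (by exact_mod_cast (by omega : 0 < n))]; exact_mod_cast hkn.le
    have a1 := transfer_u (cl k litc) pc hq (Av_proper hkn) ⌊c * n⌋₊ Set.univ
    have a2 := transfer_one_sub (cl k litc) pc hq (Av_proper hkn) ⌊c * n⌋₊ Set.univ
    have a3 := q_pow_ge (by omega) hn hc
    rw [satProb_eq]
    have b1 := u_nonneg (pc (n := n) (k := k)) ⌊c * n⌋₊ Set.univ
    have b2 := u_le_one (pc (n := n) (k := k)) ⌊c * n⌋₊ Set.univ
    have b3 := (mul_le_mul_of_nonneg_right a3 b1).trans a1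
    have b4 := (mul_le_mul_of_nonneg_right a3 (sub_nonneg.2 b2)).trans a2
    rw [Real.exp_neg, inv_mul_le_iff₀ (Real.exp_pos _)] at b3 b4
    unfold P
    exact ⟨b1, b2, b3, by linarith⟩
  refine ⟨α, hα, fun c hc0 hc => ?_, fun c hc => ?_⟩
  · have h3 := (((h1 c hc0 hc).const_sub 1).const_mul (Real.exp (2 * k * k * c))).const_sub 1
    simp only [sub_self, mul_zero, sub_zero] at h3
    exact tendsto_of_tendsto_of_tendsto_of_le_of_le' h3 tendsto_const_nhds
      ((key c hc0).mono fun n h => h.2.2.2) ((key c hc0).mono fun n h => h.2.1)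
  · have h3 := (h2 c hc).const_mul (Real.exp (2 * k * k * c))
    rw [mul_zero] at h3
    exact tendsto_of_tendsto_of_tendsto_of_le_of_le' tendsto_const_nhds h3
      ((key c (by linarith)).mono fun n h => h.1) ((key c (by linarith)).mono fun n h => h.2.2.1)

end Vale.Agent.P170
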